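import Vale.Agent.P179.R2.H292.Ext
import Vale.Agent.P179.H166.Z2

/-!
# Blocks below a block with abelian defect groups: defect groups and inertial groups
-/

namespace P179H725

open Subgroup Finset P179H524 P179A P179C P179P P179Y P179H292

open P179B (NChain inertialGroup inertialIndex regularElements)

open scoped Classical

universe u

section Op

variable {p : ℕ} [hp : Fact p.Prime] {k : Type u} [Field k] [IsAlgClosed k] [CharP k p]
  {G : Type} [Group G] [Finite G]

/-- normal `p`-subgroups lie in the defect groups of the blocks -/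
theorem le_defect {B : MonoidAlgebra k G} (hB : IsBlock B) {D : Subgroup G}
    (hD : IsDefectGroup B D) (R : Subgroup G) [hRn : R.Normal] (hR : IsPGroup p R) : R ≤ D := by
  have := Fintype.ofFinite G
  obtain ⟨x, l, hl, hlz, hBx, hlx, hSyl, hxreg⟩ := exists_elt_of_block (p := p) hB hD
  have hx : x ∈ centralizer (R : Set G) := by
    by_contra hcon
    apply hlx
    obtain ⟨LB, hLB⟩ := blockHomStmt B hB
    have hmem : mkF (cls k x) ∈ Subalgebra.center k (MonoidAlgebra k G) := mkF_mem (isCF_cls x)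
    have h1 := P179N.hom_eq_zero (p := p) R hR LB ⟨mkF (cls k x), hmem⟩ (by
      funext c
      have hco : (fun h => ((⟨mkF (cls k x), hmem⟩ :
          Subalgebra.center k (MonoidAlgebra k G)) : MonoidAlgebra k G).coeff h) = cls k x := by
        funext h
        exact coeff_mkF _ _
      rw [hco, Pi.zero_apply]
      unfold pushR
      refine sum_eq_zero_of_perm p hR (conjPerm R) _ ?_ ?_
      · intro r h
        rw [conjPerm_apply, isCF_cls x (r : G) h]
        have h2 : QuotientGroup.mk' R ((r : G) * h * (r : G)⁻¹) = QuotientGroup.mk' R h := by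
          have h3 : QuotientGroup.mk' R (r : G) = 1 := by
            rw [QuotientGroup.mk'_apply, QuotientGroup.eq_one_iff]
            exact r.2
          rw [map_mul, map_mul, map_inv, h3, one_mul, inv_one, mul_one]
        rw [h2]
      · intro h hfix
        by_cases hxh : IsConj x h
        · exfalso
          apply hcon
          have hh : h ∈ centralizer (R : Set G) :=
            (mem_cent_iff R h).2 fun d hd => hfix ⟨d, hd⟩
          obtain ⟨c, rfl⟩ := isConj_iff.1 hxh
          rw [mem_centralizer_iff] at hh ⊢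
          intro r hr
          have h4 := hh (c * r * c⁻¹) (hRn.conj_mem r hr c)
          calc r * x = c⁻¹ * (c * r * c⁻¹ * (c * x * c⁻¹)) * c := by group
            _ = x * r := by rw [h4]; group
        · have h5 : cls k x h = 0 := if_neg hxh
          rw [h5, ite_self])
    rw [hLB] at h1
    rw [hlz _ (isCF_cls x)]
    exact h1
  obtain ⟨c, hc, h⟩ := hSyl.max R hR (by
    intro r hr
    rw [mem_centralizer_singleton_iff]
    exact mem_centralizer_iff.1 hx r hr)
  intro y hy
  have h1 := h (c * y * c⁻¹) (hRn.conj_mem y hy c)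
  have h2 : c⁻¹ * (c * y * c⁻¹) * c = y := by group
  rwa [h2] at h1

end Op

section Sub

variable (p : ℕ) [hp : Fact p.Prime] {k : Type u} [Field k] [IsAlgClosed k] [hk : CharP k p]
  {G : Type} [Group G] [Finite G]

include hp hk

/-- the defect groups of the blocks `b` of `H` with `b^G = B` -/
theorem defect_conj {B : MonoidAlgebra k G} (hB : IsBlock B) {D : Subgroup G}
    (hD : IsDefectGroup B D) (hab : ∀ a ∈ D, ∀ b ∈ D, a * b = b * a) {H : Subgroup G}
    {b : MonoidAlgebra k H} (hb : IsBlock b) (hbB : InducesTo b B) {E : Subgroup H}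
    (hE : IsDefectGroup b E)
    (hC : centralizer ((E.map H.subtype : Subgroup G) : Set G) ≤ H) :
    ∃ g : G, ∀ x, x ∈ E.map H.subtype ↔ g⁻¹ * x * g ∈ D := by
  have := Fintype.ofFinite G
  have := Fintype.ofFinite H
  obtain ⟨hDp, l, hl, hlz⟩ := exists_BP_of_block (p := p) B hB D hD
  obtain ⟨hEp, lE, hlE, hlEz⟩ := exists_BP_of_block (p := p) b hb E hE
  have hl2 := P179H292.BP.extend hlE hC
  refine FDT hl hDp hab (hT_of_block hB hD hDp hab hl hlz) hl2 (hEp.map _) fun z hz => ?_
  rw [exL_eq hbB hlEz z hz, hlz z hz]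

theorem defect_comm {B : MonoidAlgebra k G} (hB : IsBlock B) {D : Subgroup G}
    (hD : IsDefectGroup B D) (hab : ∀ a ∈ D, ∀ b ∈ D, a * b = b * a) {H : Subgroup G}
    {b : MonoidAlgebra k H} (hb : IsBlock b) (hbB : InducesTo b B) {E : Subgroup H}
    (hE : IsDefectGroup b E)
    (hC : centralizer ((E.map H.subtype : Subgroup G) : Set G) ≤ H) :
    ∀ a ∈ E, ∀ c ∈ E, a * c = c * a := by
  obtain ⟨g, hg⟩ := defect_conj p hB hD hab hb hbB hE hC
  intro a ha c hc
  apply Subtype.ext
  have h7 := hab _ ((hg (a : G)).1 ⟨a, ha, rfl⟩) _ ((hg (c : G)).1 ⟨c, hc, rfl⟩)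
  have h8 : g⁻¹ * (a : G) * g * (g⁻¹ * c * g) = g⁻¹ * ((a : G) * c) * g := by group
  have h9 : g⁻¹ * (c : G) * g * (g⁻¹ * a * g) = g⁻¹ * ((c : G) * a) * g := by group
  rw [h8, h9] at h7
  exact mul_left_cancel (mul_right_cancel h7)

/-- **defect groups, root blocks and inertial groups of the blocks `b` of `H` with `b^G = B`** -/
theorem root_conj {B : MonoidAlgebra k G} (hB : IsBlock B) {D : Subgroup G}
    (hD : IsDefectGroup B D) (hab : ∀ a ∈ D, ∀ b ∈ D, a * b = b * a)
    {β : MonoidAlgebra k (centralizer (D : Set G))} (hβ : IsBlock β) (hβB : InducesTo β B)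
    {H : Subgroup G} {b : MonoidAlgebra k H} (hb : IsBlock b) (hbB : InducesTo b B)
    {E : Subgroup H} (hE : IsDefectGroup b E)
    (hC : centralizer ((E.map H.subtype : Subgroup G) : Set G) ≤ H)
    {ε : MonoidAlgebra k (centralizer (E : Set H))} (hε : IsBlock ε) (hεb : InducesTo ε b) :
    ∃ g : G, (∀ x, x ∈ E.map H.subtype ↔ g⁻¹ * x * g ∈ D) ∧
      ∀ n : H, n ∈ inertialGroup E ε ↔ g⁻¹ * n * g ∈ inertialGroup D β := by
  have := Fintype.ofFinite G
  have := Fintype.ofFinite H
  have habE := defect_comm p hB hD hab hb hbB hE hC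
  obtain ⟨l, hl, hlz, hlβ⟩ := exists_BP_of_subblock (p := p) hB hD hab hβ hβB
  obtain ⟨lE, hlE, hlEz, hlEε⟩ := exists_BP_of_subblock (p := p) hb hE habE hε hεb
  have hDp := (exists_BP_of_block (p := p) B hB D hD).1
  have hEp := (exists_BP_of_block (p := p) b hb E hE).1
  have hl2 := P179H292.BP.extend hlE hC
  obtain ⟨g, hg, hgl⟩ := FDc hl hDp hab (hT_of_block hB hD hDp hab hl hlz) hl2 (hEp.map _)
    fun z hz => by rw [exL_eq hbB hlEz z hz, hlz z hz]
  refine ⟨g, hg, fun n => ?_⟩
  rw [← stabT_eq_inertialGroup hβ hlβ, ← stabT_eq_inertialGroup hε hlEε]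
  have h1 : n ∈ stabT E lE ↔ (n : G) ∈ stabT (E.map H.subtype) (exL H lE) :=
    ⟨stabT_le, stabT_ext hC⟩
  rw [h1]
  set D' := E.map H.subtype with hD'
  set l2 := exL H lE with hl2def
  have hg' : ∀ x, x ∈ D ↔ g * x * g⁻¹ ∈ D' := by
    intro x
    rw [hg]
    have : g⁻¹ * (g * x * g⁻¹) * g = x := by group
    rw [this]
  have hnorm : ∀ m, m ∈ normalizer (D' : Set G) ↔ g⁻¹ * m * g ∈ normalizer (D : Set G) := by
    intro m
    rw [mem_normalizer_iff, mem_normalizer_iff]
    constructor
    · intro h d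
      have h1 := h (g * d * g⁻¹)
      rw [hg, hg] at h1
      have e1 : g⁻¹ * (g * d * g⁻¹) * g = d := by group
      have e2 : g⁻¹ * (m * (g * d * g⁻¹) * m⁻¹) * g = g⁻¹ * m * g * d * (g⁻¹ * m * g)⁻¹ := by group
      rwa [e1, e2] at h1
    · intro h d
      have h1 := h (g⁻¹ * d * g)
      rw [hg, hg]
      have e2 : g⁻¹ * m * g * (g⁻¹ * d * g) * (g⁻¹ * m * g)⁻¹ = g⁻¹ * (m * d * m⁻¹) * g := by group
      rwa [e2] at h1
  rw [mem_stabT, mem_stabT, hnorm]
  refine and_congr_right fun hn => ?_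
  have hg2 : ∀ x, x ∈ D ↔ g⁻¹⁻¹ * x * g⁻¹ ∈ D' := by
    intro x
    rw [hg', inv_inv]
  constructor
  · intro h z hz
    have h2 := h _ (hz.cjG hg)
    rw [← hgl z hz, ← hgl _ (hz.cj hn), ← cj_mul, ← h2, ← cj_mul]
    congr 2
    group
  · intro h z hz
    have hz' : InvOn (centralizer (D : Set G)) (cj g⁻¹ z) := hz.cjG hg2
    have h2 := h _ hz'
    have h3 : cj g (cj g⁻¹ z) = z := by rw [← cj_mul, mul_inv_cancel, cj_one]
    rw [← hgl _ hz', ← hgl _ (hz'.cj hn), h3, ← cj_mul, ← cj_mul] at h2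
    rw [← h2]
    congr 2
    group

/-- the inertial index of `b` divides the one of `B` -/
theorem inertialIndex_dvd {B : MonoidAlgebra k G} (hB : IsBlock B) {D : Subgroup G}
    (hD : IsDefectGroup B D) (hab : ∀ a ∈ D, ∀ b ∈ D, a * b = b * a)
    {β : MonoidAlgebra k (centralizer (D : Set G))} (hβ : IsBlock β) (hβB : InducesTo β B)
    {H : Subgroup G} {b : MonoidAlgebra k H} (hb : IsBlock b) (hbB : InducesTo b B)
    {E : Subgroup H} (hE : IsDefectGroup b E)
    (hC : centralizer ((E.map H.subtype : Subgroup G) : Set G) ≤ H)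
    {ε : MonoidAlgebra k (centralizer (E : Set H))} (hε : IsBlock ε) (hεb : InducesTo ε b) :
    inertialIndex E ε ∣ inertialIndex D β := by
  have := Fintype.ofFinite G
  obtain ⟨g, hg, hgT⟩ := root_conj p hB hD hab hβ hβB hb hbB hE hC hε hεb
  -- inside `H`
  have hcent : ∀ x, x ∈ centralizer ((E.map H.subtype : Subgroup G) : Set G) ↔
      g⁻¹ * x * g ∈ centralizer (D : Set G) := fun x => cent_conj hg x
  let K : Subgroup G := ((inertialGroup D β).map (MulAut.conj g).toMonoidHom) ⊓ H
  have hmap : ∀ (S : Subgroup G) (x : G), x ∈ S.map (MulAut.conj g).toMonoidHom ↔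
      g⁻¹ * x * g ∈ S := by
    intro S x
    constructor
    · rintro ⟨y, hy, rfl⟩
      have : g⁻¹ * (MulAut.conj g).toMonoidHom y * g = y := by
        change g⁻¹ * (g * y * g⁻¹) * g = y
        group
      rwa [this]
    · intro h
      refine ⟨_, h, ?_⟩
      change g * (g⁻¹ * x * g) * g⁻¹ = x
      group
  have h1 : inertialIndex E ε = ((centralizer (D : Set G)).map
      (MulAut.conj g).toMonoidHom).relIndex K := by
    unfold inertialIndex
    have h2 : centralizer (E : Set H) = ((centralizer (D : Set G)).map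
        (MulAut.conj g).toMonoidHom).subgroupOf H := by
      ext x
      rw [mem_cent_map H E x, hcent, mem_subgroupOf, hmap]
    have h3 : inertialGroup E ε = K.subgroupOf H := by
      ext x
      rw [hgT, mem_subgroupOf, Subgroup.mem_inf, hmap]
      exact ⟨fun h => ⟨h, x.2⟩, fun h => h.1⟩
    rw [h2, h3, relIndex_subgroupOf inf_le_right]
  have h2 : inertialIndex D β = ((centralizer (D : Set G)).map
      (MulAut.conj g).toMonoidHom).relIndex
        ((inertialGroup D β).map (MulAut.conj g).toMonoidHom) := by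
    unfold inertialIndex
    rw [relIndex_map_map_of_injective _ _ (MulAut.conj g).injective]
  rw [h1, h2]
  have hle : (centralizer (D : Set G)).map (MulAut.conj g).toMonoidHom ≤ K := by
    refine le_inf (Subgroup.map_mono ?_) ?_
    · intro x hx
      have h3 := cent_le_stabT D (fun _ : G → k => (0 : k)) hx
      refine ⟨h3.1, fun y z hyz => ?_⟩
      have hcf := (P179C.mem_center_iff _).1 hβ.1
      have h4 := hcf ⟨x, hx⟩ y
      have h5 : z = ⟨x, hx⟩ * y * ⟨x, hx⟩⁻¹ := Subtype.ext hyz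
      rw [h5]
      exact h4
    · intro x hx
      rw [hmap] at hx
      exact hC ((hcent x).2 hx)
  exact Dvd.intro _ (Subgroup.relIndex_mul_relIndex _ _ _ hle inf_le_left)

/-- regular elements -/
theorem regular_below {B : MonoidAlgebra k G} (hB : IsBlock B) {D : Subgroup G}
    (hD : IsDefectGroup B D) (hab : ∀ a ∈ D, ∀ b ∈ D, a * b = b * a)
    {β : MonoidAlgebra k (centralizer (D : Set G))} (hβ : IsBlock β) (hβB : InducesTo β B)
    {H : Subgroup G} {b : MonoidAlgebra k H} (hb : IsBlock b) (hbB : InducesTo b B)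
    {E : Subgroup H} (hE : IsDefectGroup b E)
    (hC : centralizer ((E.map H.subtype : Subgroup G) : Set G) ≤ H)
    {ε : MonoidAlgebra k (centralizer (E : Set H))} (hε : IsBlock ε) (hεb : InducesTo ε b)
    (hfree : ∀ u ∈ D, u ≠ 1 → u ∈ regularElements D β) :
    ∀ u ∈ E, u ≠ 1 → u ∈ regularElements E ε := by
  obtain ⟨g, hg, hgT⟩ := root_conj p hB hD hab hβ hβB hb hbB hE hC hε hεb
  intro u hu hu1
  refine ⟨hu, fun n hn hnu => ?_⟩
  have h1 : g⁻¹ * (u : G) * g ∈ D := (hg u).1 ⟨u, hu, rfl⟩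
  have h2 : g⁻¹ * (u : G) * g ≠ 1 := by
    intro h
    apply hu1
    apply Subtype.ext
    have h3 : (u : G) = g * (g⁻¹ * u * g) * g⁻¹ := by group
    rw [h3, h]
    simp
  have h3 := (hfree _ h1 h2).2 (g⁻¹ * n * g) ((hgT n).1 hn) (by
    have h4 : g⁻¹ * (n : G) * g * (g⁻¹ * u * g) * (g⁻¹ * n * g)⁻¹ =
        g⁻¹ * (n * u * (n : G)⁻¹) * g := by group
    rw [h4]
    have h5 : (n : G) * u * (n : G)⁻¹ = u := congrArg Subtype.val hnu
    rw [h5])
  rw [mem_cent_map H E n]
  exact (cent_conj hg _).2 h3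

end Sub

section Chain

variable {p : ℕ} [hp : Fact p.Prime] {k : Type u} [Field k] [IsAlgClosed k] [CharP k p]
  {G : Type} [Group G] [Finite G]

omit hp [Finite G] in
/-- the largest member of a normal chain -/
theorem exists_top (s : NChain p G) : ∃ M ∈ s.1, (∀ Q ∈ s.1, Q ≤ M) ∧ IsPGroup p M ∧ M ≠ ⊥ ∧
    M ≤ stab s.1 ∧ (M.subgroupOf (stab s.1)).Normal ∧ centralizer (M : Set G) ≤ stab s.1 := by
  have hs := (P179N.isNormalChain_iff s.1).1 s.2
  obtain ⟨M, hM, hmax⟩ := P179N.exists_largest hs.1.1.2 hs.2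
  refine ⟨M, hM, hmax, (hs.1.1.1 M hM).1, (hs.1.1.1 M hM).2, ?_, ?_, ?_⟩
  · rw [le_stab]
    exact fun Q hQ => hs.1.2 Q hQ M hM
  · refine ⟨fun n hn g => ?_⟩
    rw [mem_subgroupOf] at hn ⊢
    exact (mem_normalizer_iff.mp (mem_stab.mp g.2 M hM) _).mp hn
  · intro x hx
    rw [mem_stab]
    intro Q hQ
    have hxc : ∀ q ∈ Q, q * x = x * q := fun q hq => mem_centralizer_iff.1 hx q (hmax Q hQ hq)
    rw [mem_normalizer_iff]
    intro y
    constructor
    · intro hy
      rw [← hxc y hy, mul_inv_cancel_right]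
      exact hy
    · intro hy
      have h2 := hxc _ hy
      have h3 : x * y = x * (x * y * x⁻¹) := by
        rw [← h2, mul_assoc, inv_mul_cancel, mul_one]
      rw [mul_left_cancel h3]
      exact hy

/-- `M` normal in `H` and `C_G(M) ≤ H`: the centralisers in `G` of the defect groups of the blocks
of `H` lie in `H` -/
theorem cent_defect_le' {M H : Subgroup G} (hM : IsPGroup p M) (hMH : M ≤ H)
    (hHM : H ≤ normalizer (M : Set G)) (hC : centralizer (M : Set G) ≤ H)
    {b : MonoidAlgebra k H} (hb : IsBlock b) {E : Subgroup H} (hE : IsDefectGroup b E) :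
    centralizer ((E.map H.subtype : Subgroup G) : Set G) ≤ H := by
  have hn : (M.subgroupOf H).Normal := ⟨fun n hn g => by
    rw [mem_subgroupOf] at hn ⊢
    exact (mem_normalizer_iff.mp (hHM g.2) _).mp hn⟩
  have h1 := le_defect (p := p) hb hE (M.subgroupOf H)
    (hM.of_equiv (subgroupOfEquivOfLe hMH).symm)
  refine (centralizer_le ?_).trans hC
  intro x hx
  exact ⟨⟨x, hMH hx⟩, h1 (mem_subgroupOf.2 hx), rfl⟩

/-- the centralisers of the defect groups of the blocks of the stabiliser of a normal chain lie in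
the stabiliser -/
theorem cent_defect_le (s : NChain p G) {b : MonoidAlgebra k (stab s.1)} (hb : IsBlock b)
    {E : Subgroup (stab s.1)} (hE : IsDefectGroup b E) :
    centralizer ((E.map (stab s.1).subtype : Subgroup G) : Set G) ≤ stab s.1 := by
  obtain ⟨M, hM, hmax, hMp, hM1, hMs, hMn, hMC⟩ := exists_top s
  refine cent_defect_le' hMp hMs ?_ hMC hb hE
  intro x hx
  exact mem_stab.1 hx M hM

omit [IsAlgClosed k] in
/-- existence of defect groups -/
theorem exists_defect {B : MonoidAlgebra k G} (hB : IsBlock B) :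
    ∃ D : Subgroup G, IsDefectGroup B D := by
  have h1 : IsRelTrace B (⊤ : Subgroup G) := by
    refine ⟨B, fun d _ => conjBy_central d hB.1, ?_⟩
    have := Fintype.ofFinite (G ⧸ (⊤ : Subgroup G))
    rw [finsum_eq_sum_of_fintype]
    simp only [conjBy_central _ hB.1, Finset.sum_const, Finset.card_univ]
    rw [← Nat.card_eq_fintype_card]
    change B = (⊤ : Subgroup G).index • B
    rw [index_top, one_smul]
  obtain ⟨D, -, hD⟩ := exists_minimal_le_of_wellFoundedLT (IsRelTrace B) (⊤ : Subgroup G) h1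
  exact ⟨D, hD⟩

/-- **The blocks below.** `B` has the abelian defect group `D` and the root `β`. Let `M` be a
`p`-subgroup, normal in `H`, with `C_G(M) ≤ H`, and let `b` be a block of `H` with `b^G = B`. -/
theorem below_data {B : MonoidAlgebra k G} (hB : IsBlock B) {D : Subgroup G}
    (hD : IsDefectGroup B D) (hab : ∀ a ∈ D, ∀ b ∈ D, a * b = b * a)
    {β : MonoidAlgebra k (centralizer (D : Set G))} (hβ : IsBlock β) (hβB : InducesTo β B)
    {M H : Subgroup G} (hM : IsPGroup p M) (hMH : M ≤ H)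
    (hHM : H ≤ normalizer (M : Set G)) (hC : centralizer (M : Set G) ≤ H)
    {b : MonoidAlgebra k H} (hb : IsBlock b) (hbB : InducesTo b B) :
    ∃ (E : Subgroup H) (ε : MonoidAlgebra k (centralizer (E : Set H))) (g : G),
      IsDefectGroup b E ∧ M.subgroupOf H ≤ E ∧ (∀ a ∈ E, ∀ c ∈ E, a * c = c * a) ∧
      IsBlock ε ∧ InducesTo ε b ∧ inertialIndex E ε ∣ inertialIndex D β ∧
      ((∀ u ∈ D, u ≠ 1 → u ∈ regularElements D β) → ∀ u ∈ E, u ≠ 1 → u ∈ regularElements E ε) ∧
      (∀ x ∈ D, g * x * g⁻¹ ∈ H) ∧ (∀ x : H, x ∈ E ↔ g⁻¹ * x * g ∈ D) ∧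
      (∀ n : H, n ∈ inertialGroup E ε ↔ g⁻¹ * n * g ∈ inertialGroup D β) := by
  have := Fintype.ofFinite G
  have := Fintype.ofFinite H
  obtain ⟨E, hE⟩ := exists_defect hb
  have hn : (M.subgroupOf H).Normal := ⟨fun n hn g => by
    rw [mem_subgroupOf] at hn ⊢
    exact (mem_normalizer_iff.mp (hHM g.2) _).mp hn⟩
  have h1 := le_defect (p := p) hb hE (M.subgroupOf H)
    (hM.of_equiv (subgroupOfEquivOfLe hMH).symm)
  have hCE := cent_defect_le' hM hMH hHM hC hb hE
  obtain ⟨ε, hε, hεb⟩ := exists_subblock (p := p) hb hE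
  obtain ⟨g, hg, hgT⟩ := root_conj p hB hD hab hβ hβB hb hbB hE hCE hε hεb
  refine ⟨E, ε, g, hE, h1, defect_comm p hB hD hab hb hbB hE hCE, hε, hεb,
    inertialIndex_dvd p hB hD hab hβ hβB hb hbB hE hCE hε hεb,
    regular_below p hB hD hab hβ hβB hb hbB hE hCE hε hεb, ?_, fun x => ?_, hgT⟩
  · intro x hx
    have h2 : g * x * g⁻¹ ∈ E.map H.subtype := by
      rw [hg]
      have : g⁻¹ * (g * x * g⁻¹) * g = x := by group
      rwa [this]
    exact map_subtype_le E h2
  · rw [← hg]
    constructor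
    · intro hx
      exact ⟨x, hx, rfl⟩
    · rintro ⟨y, hy, hyx⟩
      have : y = x := Subtype.ext hyx
      exact this ▸ hy

end Chain

end P179H725
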