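import Vale.Agent.P179.H905.N6b
import Vale.Agent.P179.H905.DZV
import Vale.Agent.P179.H166.Z2

/-!
# The exact Knörr–Robinson recursion of a block, II: the characters of defect zero
-/

namespace P179H725

open Subgroup P179H524 P179A P179C P179P P179Y

open scoped Classical

universe u

/-- **A block with a nontrivial defect group contains no characters of defect zero.** -/
theorem no_dz {p : ℕ} [hp : Fact p.Prime] {k : Type u} [Field k] [IsAlgClosed k] [CharP k p]
    (red : integralClosure ℤ ℂ →+* k) {G : Type} [Group G] [Finite G] {B : MonoidAlgebra k G}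
    (hB : IsBlock B) {D : Subgroup G} (hD : IsDefectGroup B D) (hD1 : D ≠ ⊥) {χ : G → ℂ}
    (hχ : IsDefectZeroChar p χ) (h : lam red χ (fun g => B.coeff g) = 1) : False := by
  have := Fintype.ofFinite G
  have := Fintype.ofFinite (ConjClasses G)
  obtain ⟨hDp, l, hl, hlz⟩ := exists_BP_of_block (p := p) B hB D hD
  have hprim := (isBlock_iff_prim ⟨B, hB.1⟩).1 hB
  obtain ⟨LB, hLB⟩ := blockHomStmt B hB
  have hL : lamHom red χ hχ.1 = LB := by
    refine eq_of_prim hprim _ LB ?_ ?_
    · rw [lamHom_apply]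
      exact h
    · rw [hLB]
      exact centralChar_self B hB
  have hval : ∀ x : G, redC red (om χ (ind (ConjClasses.mk x))) =
      centralChar B (classSum k x) := by
    intro x
    rw [om_ind hχ.1, ← lam_classSum red hχ.1]
    have h1 := hLB ⟨classSum k x, classSum_mem_center x⟩
    rw [← hL, lamHom_apply] at h1
    exact h1
  obtain ⟨hirr, d, hd, hdp⟩ := hχ
  let φ' : P179P.Irr G := ⟨χ, hirr⟩
  have hd0 : d ≠ 0 := by
    rintro rfl
    exact φ'.one_ne_zero (by rw [show φ'.1 = χ from rfl, hd]; simp)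
  have hdC : (d : ℂ) ≠ 0 := by exact_mod_cast hd0
  -- the central element `∑ χ(g⁻¹) g`
  set a : G → ℂ := fun g => χ g⁻¹ with ha
  have hacf : IsCF a := by
    intro t x
    have h1 : (t * x * t⁻¹)⁻¹ = t * x⁻¹ * t⁻¹ := by group
    simp only [ha, h1]
    exact φ'.conj t x⁻¹
  have haint : ∀ g, a g ∈ integralClosure ℤ ℂ := fun g => φ'.integral g⁻¹
  have hφval : omC φ'.1 a = Fintype.card G / d := by
    unfold omC
    rw [show φ'.1 1 = (d : ℂ) from hd]
    congr 1
    have h1 := row_orth φ' φ'
    rw [if_pos rfl] at h1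
    rw [← h1]
    exact Finset.sum_congr rfl fun g _ => by simp only [ha]; ring
  -- `|G| / d` is an integer prime to `p`
  obtain ⟨t, ht⟩ : ∃ t : ℕ, Fintype.card G = d * t := by
    obtain ⟨b, hb⟩ : ∃ b : ℤ, ((Fintype.card G : ℂ) / d) = b := by
      have h1 := omC_mem φ' hacf haint
      rw [hφval] at h1
      have h2 : IsIntegral ℤ ((algebraMap ℚ ℂ) ((Fintype.card G : ℚ) / d)) := by
        have : (algebraMap ℚ ℂ) ((Fintype.card G : ℚ) / d) = (Fintype.card G : ℂ) / d := by simp
        rw [this]; exact h1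
      rw [isIntegral_algebraMap_iff (algebraMap ℚ ℂ).injective] at h2
      obtain ⟨b, hb⟩ := IsIntegrallyClosed.isIntegral_iff.1 h2
      refine ⟨b, ?_⟩
      have := congrArg (algebraMap ℚ ℂ) hb
      simpa using this.symm
    rw [div_eq_iff hdC] at hb
    have h3 : (Fintype.card G : ℤ) = b * d := by exact_mod_cast hb
    have h4 : (d : ℤ) ∣ Fintype.card G := ⟨b, by rw [h3]; ring⟩
    obtain ⟨t, ht⟩ := Int.natCast_dvd_natCast.1 h4
    exact ⟨t, ht⟩
  have ht0 : t ≠ 0 := by
    rintro rfl
    rw [mul_zero] at ht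
    exact Fintype.card_ne_zero ht
  have hpt : ¬ p ∣ t := by
    rw [Nat.card_eq_fintype_card, ht, Nat.factorization_mul hd0 ht0, Finsupp.add_apply] at hdp
    have h5 : t.factorization p = 0 := by omega
    rw [Nat.factorization_eq_zero_iff] at h5
    rcases h5 with h5 | h5 | h5
    · exact absurd hp.out h5
    · exact h5
    · exact absurd h5 ht0
  have hφval2 : omC φ'.1 a = t := by
    rw [hφval, ht]
    push_cast
    field_simp
  -- some class has a nonzero contribution
  have hsum : ((t : AA) : AA) =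
      ∑ C : ConjClasses G, (⟨a C.out, haint _⟩ : AA) * omA φ' (ind C) (isCF_ind C) := by
    apply Subtype.ext
    push_cast
    rw [← hφval2]
    exact omC_expand hacf
  have hne : ∑ C : ConjClasses G, red ((⟨a C.out, haint _⟩ : AA) * omA φ' (ind C) (isCF_ind C)) ≠
      0 := by
    rw [← map_sum, ← hsum, map_natCast]
    intro h0
    exact hpt ((CharP.cast_eq_zero_iff k p t).1 h0)
  obtain ⟨C, -, hC⟩ := Finset.exists_ne_zero_of_sum_ne_zero hne
  rw [map_mul] at hC
  have hC1 := left_ne_zero_of_mul hC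
  have hC2 := right_ne_zero_of_mul hC
  have hCx : ConjClasses.mk C.out = C := Quot.out_eq C
  -- `C` meets the centralizer of `D`
  have hl0 : l (fun g => (classSum k C.out).coeff g) ≠ 0 := by
    rw [hlz _ ((P179C.mem_center_iff _).1 (classSum_mem_center C.out)), mkF_coeff, ← hval, hCx]
    intro h0
    apply hC2
    rw [← h0]
    exact (redC_of_mem red _).symm
  obtain ⟨y, hy, hy0⟩ : ∃ y ∈ centralizer (D : Set G), (classSum k C.out).coeff y ≠ 0 := by
    by_contra hcon
    push Not at hcon
    exact hl0 (hl.supp _ hcon)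
  have hyC : ConjClasses.mk y = C := by
    rw [coeff_classSum, hCx] at hy0
    by_contra hcon
    apply hy0
    unfold ind
    rw [if_neg hcon, Int.cast_zero]
  have hconj : IsConj C.out y := by
    rw [← ConjClasses.mk_eq_mk_iff_isConj, hCx, hyC]
  have hay : a y = a C.out := by
    obtain ⟨c, hc⟩ := isConj_iff.1 hconj
    rw [← hc]
    exact hacf c C.out
  -- `p` divides the order of the centralizer of `y⁻¹`
  have hpC : p ∣ Nat.card (centralizer ({y⁻¹} : Set G)) := by
    have h1 : D ≤ centralizer ({y⁻¹} : Set G) := by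
      intro x hx
      rw [mem_centralizer_singleton_iff]
      have h2 : x * y = y * x := mem_centralizer_iff.1 hy x hx
      have h3 : Commute x y := h2
      exact h3.inv_right.eq
    have h2 : Nontrivial D := (Subgroup.nontrivial_iff_ne_bot D).2 hD1
    obtain ⟨n, hn, hcard⟩ := hDp.nontrivial_iff_card.1 h2
    have h3 : p ∣ Nat.card D := by
      rw [hcard]
      exact dvd_pow_self p hn.ne'
    exact h3.trans (Subgroup.card_dvd_of_le h1)
  have hom : omA φ' (ind (ConjClasses.mk y⁻¹)) (isCF_ind _) *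
      ((Nat.card (centralizer ({y⁻¹} : Set G)) : ℕ) : AA) = (t : AA) * (⟨a y, haint y⟩ : AA) := by
    apply Subtype.ext
    have h1 := class_card_mul y⁻¹
    have h2 : om χ (ind (ConjClasses.mk y⁻¹)) =
        Nat.card {x : G // IsConj y⁻¹ x} * χ y⁻¹ / χ 1 := om_ind hirr y⁻¹
    change om χ (ind (ConjClasses.mk y⁻¹)) *
      (((Nat.card (centralizer ({y⁻¹} : Set G)) : ℕ) : AA) : ℂ) = (((t : ℕ) : AA) : ℂ) * a y
    rw [h2, hd]
    push_cast
    have h3 : (Nat.card {x : G // IsConj y⁻¹ x} : ℂ) *
        (Nat.card (centralizer ({y⁻¹} : Set G)) : ℂ) = d * t := by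
      rw [Nat.card_eq_fintype_card (α := G), ht] at h1
      exact_mod_cast h1
    have h4 : (Nat.card {x : G // IsConj y⁻¹ x} : ℂ) * χ y⁻¹ / d *
        (Nat.card (centralizer ({y⁻¹} : Set G)) : ℂ) =
        ((Nat.card {x : G // IsConj y⁻¹ x} : ℂ) *
        (Nat.card (centralizer ({y⁻¹} : Set G)) : ℂ)) * χ y⁻¹ / d := by ring
    rw [h4, h3]
    change (d : ℂ) * t * a y / d = t * a y
    field_simp
  have h1 := congrArg red hom
  rw [map_mul, map_mul, map_natCast, map_natCast,
    (CharP.cast_eq_zero_iff k p _).2 hpC, mul_zero] at h1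
  have h2 : red (⟨a y, haint y⟩ : AA) = 0 := by
    rcases mul_eq_zero.1 h1.symm with h3 | h3
    · exact absurd ((CharP.cast_eq_zero_iff k p t).1 h3) hpt
    · exact h3
  apply hC1
  rw [← h2]
  congr 1
  exact Subtype.ext hay.symm

end P179H725
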