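import Vale.Agent.P179.R2.H725.Cnt
import Vale.Agent.P179.R2.H725.DZB
import Vale.Agent.P179.H526.Z16

/-!
# The exact Knörr–Robinson recursion of a block, III
-/

namespace P179H725

open Subgroup P179H524 P179A P179K P179R P179C P179N

open P179B (IsNormalChain NChain chainStab)

open scoped Classical Pointwise

universe u

section Congr

variable {p : ℕ} {k : Type*} [Field k] (red : integralClosure ℤ ℂ →+* k)

/-- transport of the weights along an isomorphism -/
theorem in_map {H H' : Type} [Group H] [Group H'] [Finite H] [Finite H'] (θ : H' ≃* H)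
    (w : WF p H) {e : MonoidAlgebra k H} {e' : MonoidAlgebra k H'}
    (he : e ∈ Subalgebra.center k (MonoidAlgebra k H)) (h : ∀ x, e'.coeff x = e.coeff (θ x)) :
    (w.map θ).In red e' ↔ w.In red e := by
  have hcf : IsCF (fun n : normalizer (w.R : Set H) => e.coeff (n : H)) := by
    intro x y
    exact (P179C.mem_center_iff _).1 he (x : H) (y : H)
  have h1 := P179Y.lam_comp red (normCongr θ w.R) w.irr hcf
  unfold WF.In
  rw [← h1]
  have h2 : (fun n : normalizer ((w.map θ).R : Set H') => e'.coeff (n : H')) =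
      fun n : normalizer ((w.map θ).R : Set H') => e.coeff (θ (n : H')) := by
    funext n
    exact h n
  rw [h2]
  rfl

theorem map_map_symm {H H' : Type} [Group H] [Group H'] (θ : H' ≃* H) (w : WF p H) :
    (w.map θ).map θ.symm = w := by
  refine WF.ext' ?_ (funext fun x => ?_)
  · ext x
    rw [WF.mem_map_R, WF.mem_map_R, θ.apply_symm_apply]
  · rw [WF.map_χ, WF.map_χ, θ.apply_symm_apply]

theorem rel_map {H H' : Type} [Group H] [Group H'] (θ : H' ≃* H) {a b : WF p H}
    (h : WF.Rel a b) : WF.Rel (a.map θ) (b.map θ) := by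
  obtain ⟨g, h1, h2⟩ := h
  refine ⟨θ.symm g, fun x => ?_, fun x => ?_⟩
  · rw [WF.mem_map_R, WF.mem_map_R, h1, map_mul, map_mul, map_inv, θ.apply_symm_apply]
  · rw [WF.map_χ, WF.map_χ, h2, map_mul, map_mul, map_inv, θ.apply_symm_apply]

theorem numW_congr {H H' : Type} [Group H] [Group H'] [Finite H] [Finite H'] (θ : H' ≃* H)
    {e : MonoidAlgebra k H} {e' : MonoidAlgebra k H'}
    (he : e ∈ Subalgebra.center k (MonoidAlgebra k H)) (h : ∀ x, e'.coeff x = e.coeff (θ x)) :
    numW p red e' = numW p red e := by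
  have he' : e' ∈ Subalgebra.center k (MonoidAlgebra k H') := by
    rw [P179C.mem_center_iff] at he ⊢
    intro g x
    beta_reduce
    rw [h, h, map_mul θ, map_mul θ, map_inv θ]
    exact he (θ g) (θ x)
  have h' : ∀ x, e.coeff x = e'.coeff (θ.symm x) := fun x => by
    rw [h, θ.apply_symm_apply]
  unfold numW
  symm
  refine Nat.card_congr (Quot.congr
    { toFun := fun w => ⟨w.1.map θ, (in_map red θ w.1 he h).2 w.2⟩
      invFun := fun w => ⟨w.1.map θ.symm, (in_map red θ.symm w.1 he' h').2 w.2⟩
      left_inv := fun w => Subtype.ext (map_map_symm θ w.1)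
      right_inv := fun w => Subtype.ext (map_map_symm θ.symm w.1) } fun a b => ?_)
  constructor
  · intro hab
    exact rel_map θ hab
  · intro hab
    have h1 := rel_map θ.symm hab
    change WF.Rel ((a.1.map θ).map θ.symm) ((b.1.map θ).map θ.symm) at h1
    rwa [map_map_symm, map_map_symm] at h1

end Congr

section KR

variable {p : ℕ} [hp : Fact p.Prime] {k : Type*} [Field k] (red : integralClosure ℤ ℂ →+* k)
  {G : Type} [Group G] [Finite G]

theorem cnt_eq_zero (z : G → k) {K : Subgroup G} (h : ¬ OpTrivial p K) :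
    cnt red p z K ⊥ = 0 := by
  have h1 := numDZ_eq_zero' p K h
  have hf : Finite {φ : K → ℂ // IsDefectZeroChar p φ} := inferInstance
  unfold cnt
  rw [Nat.card_eq_zero]
  left
  constructor
  rintro ⟨χ, h2, h3, h4, ⟨d, hd1, hd2⟩, h5⟩
  unfold numDZ at h1
  rw [Nat.card_eq_zero] at h1
  rcases h1 with h1 | h1
  · refine h1.false ⟨fun n => χ n, h3, d, hd1, ?_⟩
    rw [← hd2]
    simp
  · exact h1.not_finite hf

/-- **The Knörr–Robinson sum of the weights in a central element.** -/
theorem KR_numW {z : MonoidAlgebra k G} (hz : z ∈ Subalgebra.center k (MonoidAlgebra k G)) :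
    ∑ s ∈ chains p G, (-1 : ℤ) ^ s.card *
        (Nat.card (stab s) * numW p red (trunc (stab s) z)) =
      Nat.card G * cnt red p (fun g => z.coeff g) ⊤ ⊥ := by
  have := Fintype.ofFinite (Subgroup G)
  have h1 : ∀ s ∈ chains p G, (-1 : ℤ) ^ s.card *
      (Nat.card (stab s) * numW p red (trunc (stab s) z)) =
      ∑ Q ∈ (Finset.univ : Finset (Subgroup G)).filter (fun Q : Subgroup G => IsPGroup p Q),
        if Q ≤ stab s then (-1 : ℤ) ^ s.card *
        ((Nat.card (normalizer (Q : Set G) ⊓ stab s : Subgroup G) : ℤ) *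
          cnt red p (fun g => z.coeff g) (normalizer (Q : Set G) ⊓ stab s) Q) else 0 := by
    intro s _
    rw [card_mul_numW_sub red _ hz, Finset.mul_sum, ← Finset.sum_filter, Finset.filter_filter]
  rw [Finset.sum_congr rfl h1, Finset.sum_comm]
  rw [Finset.sum_eq_single (⊥ : Subgroup G)]
  · rw [Finset.sum_eq_single (∅ : Finset (Subgroup G))]
    · rw [if_pos bot_le]
      simp only [Finset.card_empty, pow_zero, one_mul]
      have h2 : (normalizer ((⊥ : Subgroup G) : Set G) ⊓ stab (∅ : Finset (Subgroup G))) = ⊤ := by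
        rw [P179K.stab_empty, inf_top_eq, normalizer_eq_top_iff]
        infer_instance
      rw [h2, Nat.card_congr (topEquiv (G := G)).toEquiv]
    · intro s hs hs0
      rw [if_pos bot_le]
      have hs' := mem_chains.mp hs
      have h2 : normalizer ((⊥ : Subgroup G) : Set G) ⊓ stab s = stab s := by
        rw [inf_eq_right]
        refine le_trans le_top (top_le_iff.mpr ?_)
        rw [normalizer_eq_top_iff]
        infer_instance
      rw [h2, cnt_eq_zero red _ (not_opTrivial_stab hs' (Finset.nonempty_of_ne_empty hs0))]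
      simp
    · intro h
      exact absurd (mem_chains.mpr (P179K.isPChain_empty p)) h
  · intro Q hQ hQ1
    rw [Finset.mem_filter] at hQ
    rw [← Finset.sum_filter]
    exact sum_tog_eq_zero Q ((chains p G).filter fun s => Q ≤ stab s)
      (fun s hs => by
        rw [Finset.mem_filter, mem_chains] at hs ⊢
        exact ⟨tog_isPChain hs.1 hQ.2 hQ1 hs.2,
          (le_stab_tog hs.1 hQ.2 hQ1 hs.2 Subgroup.le_normalizer).mpr hs.2⟩)
      (fun s => ((Nat.card (normalizer (Q : Set G) ⊓ stab s : Subgroup G) : ℤ) *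
          cnt red p (fun g => z.coeff g) (normalizer (Q : Set G) ⊓ stab s) Q))
      (fun s hs => by
        rw [Finset.mem_filter, mem_chains] at hs
        rw [inf_stab_tog hs.1 hQ.2 hQ1 hs.2])
  · intro h
    refine absurd ?_ h
    rw [Finset.mem_filter]
    exact ⟨Finset.mem_univ _, IsPGroup.of_bot⟩

end KR

section Quot

variable {p : ℕ} [hp : Fact p.Prime] {G : Type} [Group G] [Finite G]

/-- sums over the classes of the nonempty normal chains and sums over all chains -/
theorem card_mul_chainSum [Fintype (Quot (NChain.Conj (p := p) (G := G)))] (F : Subgroup G → ℤ)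
    (hF : ∀ (g : G) (s : Finset (Subgroup G)), F (stab (g • s)) = F (stab s)) :
    (Nat.card G : ℤ) * (F ⊤ + ∑ c : Quot (NChain.Conj (p := p) (G := G)),
        (-1) ^ c.out.1.card * F (stab c.out.1)) =
      ∑ s ∈ chains p G, (-1 : ℤ) ^ s.card * (Nat.card (stab s) * F (stab s)) := by
  have := Fintype.ofFinite (NChain p G)
  rw [sum_normal (p := p) (fun s => (Nat.card (stab s) : ℤ) * F (stab s)) (by
    intro s t h
    change (fun K : Subgroup G => (Nat.card K : ℤ) * F K) (stab s) =
      (fun K : Subgroup G => (Nat.card K : ℤ) * F K) (stab t)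
    rw [h])]
  have h1 : (chains p G).filter Nml = insert ∅ ((Finset.univ : Finset (NChain p G)).map
      ⟨Subtype.val, Subtype.val_injective⟩) := by
    ext s
    rw [Finset.mem_filter, mem_chains, Finset.mem_insert, Finset.mem_map]
    constructor
    · rintro ⟨hs, hn⟩
      rcases s.eq_empty_or_nonempty with h | h
      · exact Or.inl h
      · exact Or.inr ⟨⟨s, (isNormalChain_iff s).2 ⟨⟨hs, hn⟩, h⟩⟩, Finset.mem_univ _, rfl⟩
    · rintro (rfl | ⟨t, -, rfl⟩)
      · exact ⟨P179A.isPChain_empty p, fun Q hQ => absurd hQ (Finset.notMem_empty Q)⟩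
      · exact ((isNormalChain_iff _).1 t.2).1
  rw [h1, Finset.sum_insert, Finset.sum_map]
  · rw [Finset.card_empty, pow_zero, one_mul, P179A.stab_empty, mul_add,
      Nat.card_congr (topEquiv (G := G)).toEquiv]
    congr 1
    rw [← sum_quot (G := G) (R := ℤ) (NChain.Conj (p := p) (G := G)) conj_iff
      (fun s => (-1 : ℤ) ^ s.1.card * F (stab s.1)) (fun g s => by
        rw [val_smul, card_smul, hF])]
    refine Finset.sum_congr rfl fun s _ => ?_
    rw [stabilizer_nCh]
    change _ = (-1 : ℤ) ^ s.1.card * ((Nat.card (stab s.1) : ℤ) * F (stab s.1))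
    ring
  · rw [Finset.mem_map]
    rintro ⟨t, -, h⟩
    have := t.2.1
    have h2 : (t : Finset (Subgroup G)) = ∅ := h
    rw [h2] at this
    exact Finset.not_nonempty_empty this

end Quot

section Main

variable {p : ℕ} [hp : Fact p.Prime] {k : Type u} [Field k] [IsAlgClosed k] [CharP k p]
  (red : integralClosure ℤ ℂ →+* k) {G : Type} [Group G] [Finite G]

omit hp [IsAlgClosed k] [CharP k p] in
theorem numW_stab_smul {z : MonoidAlgebra k G}
    (hz : z ∈ Subalgebra.center k (MonoidAlgebra k G)) (g : G) (s : Finset (Subgroup G)) :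
    numW p red (trunc (stab (g • s)) z) = numW p red (trunc (stab s) z) := by
  have := Fintype.ofFinite G
  symm
  refine numW_congr red (stabEquiv g s) (trunc_mem _ hz) fun x => ?_
  rw [coeff_trunc, coeff_trunc]
  exact ((P179C.mem_center_iff _).1 hz g x).symm

/-- **the weights cancel**: the alternating sum, over the classes of normal chains (with the empty
one), of the numbers of weights of the stabilisers lying over a block with a nontrivial defect
group is zero -/
theorem weights_cancel [Fintype (Quot (NChain.Conj (p := p) (G := G)))] {B : MonoidAlgebra k G}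
    (hB : IsBlock B) {D : Subgroup G} (hD : IsDefectGroup B D) (hD1 : D ≠ ⊥) :
    (numWeightsIn p red B : ℤ) + ∑ c : Quot (NChain.Conj (p := p) (G := G)),
      (-1) ^ c.out.1.card * (numW p red (trunc (stab c.out.1) B) : ℤ) = 0 := by
  have := Fintype.ofFinite G
  have h1 := card_mul_chainSum (p := p) (G := G) (fun H => (numW p red (trunc H B) : ℤ))
    (fun g s => by rw [numW_stab_smul red hB.1])
  rw [KR_numW red hB.1] at h1
  have h2 : cnt red p (fun g => B.coeff g) ⊤ ⊥ = 0 := by
    unfold cnt
    rw [Nat.card_eq_zero]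
    left
    constructor
    rintro ⟨χ, h2, h3, h4, ⟨d, hd1, hd2⟩, h5⟩
    let θ : G ≃* (⊤ : Subgroup G) := topEquiv.symm
    have hirr : IsIrrChar χ := h3.comp θ.toMonoidHom θ.surjective
    refine no_dz red hB hD hD1 (χ := χ) ⟨hirr, d, hd1, ?_⟩ ?_
    · rw [Nat.card_congr (topEquiv (G := G)).toEquiv] at hd2
      rw [← hd2]
      simp
    · rw [← h5]
      exact (P179Y.lam_comp red (topEquiv (G := G)) hirr
        ((P179C.mem_center_iff _).1 hB.1)).symm
  have h3 : (numW p red (trunc (⊤ : Subgroup G) B) : ℤ) = numWeightsIn p red B := by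
    rw [numWeightsIn_eq_numWc p red hB, ← numW_eq_numWc red B hB.1]
    congr 1
    refine numW_congr red (topEquiv (G := G)) hB.1 fun x => ?_
    rw [coeff_trunc]
    rfl
  rw [h2, Nat.cast_zero, mul_zero, h3] at h1
  have h4 : (Nat.card G : ℤ) ≠ 0 := by exact_mod_cast Nat.card_pos.ne'
  exact (mul_eq_zero.1 h1).resolve_left h4

/-- the difference at a normal chain is the sum of the differences over the blocks `b` of the
stabiliser with `b^G = B` -/
theorem sub_eq_finsum (s : NChain p G) {B : MonoidAlgebra k G} (hB : IsBlock B) :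
    ((numSimpleIn (trunc (stab s.1) B) : ℤ) - numW p red (trunc (stab s.1) B)) =
      ∑ᶠ b : {b : MonoidAlgebra k (stab s.1) // IsBlock b ∧ InducesTo b B},
        ((numSimpleIn b.1 : ℤ) - numWeightsIn p red b.1) := by
  have := Fintype.ofFinite G
  have he := trunc_mem (stab s.1) hB.1
  obtain ⟨r, μ, hμ1, -⟩ := exists_L p (k := k) (G := stab s.1)
  have hfin := P179R.finite_blocks p (k := k) (G := stab s.1)
  have := Fintype.ofFinite {b : {b : MonoidAlgebra k (stab s.1) // IsBlock b} //
    centralChar b.1 (trunc (stab s.1) B) = 1}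
  rw [hμ1 _ he, numW_eq_numWc red _ he, numWc_eq_card p red he,
    card_eq_sum μ ⟨_, he⟩, card_eq_sum (fun q : Quot (P179H524.Weight.Conj (p := p)
      (G := stab s.1)) => mu p red q.out) ⟨_, he⟩]
  push_cast
  rw [← Finset.sum_sub_distrib]
  have hind : ∀ b : MonoidAlgebra k (stab s.1), IsBlock b →
      (centralChar b (trunc (stab s.1) B) = 1 ↔ InducesTo b B) := by
    intro b hb
    constructor
    · intro h z hz
      obtain ⟨L, hL⟩ := blockHomStmt b hb
      obtain ⟨ν, hν⟩ := exists_res (p := p) s L
      obtain ⟨LB, hLB⟩ := blockHomStmt B hB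
      have hprim := (isBlock_iff_prim ⟨B, hB.1⟩).1 hB
      have h1 : ν = LB := by
        refine eq_of_prim hprim ν LB ?_ ?_
        · rw [hν, hL]
          exact h
        · rw [hLB]
          exact centralChar_self B hB
      have h2 := hν ⟨z, hz⟩
      rw [h1, hLB, hL] at h2
      exact h2.symm
    · intro h
      rw [h B hB.1]
      exact centralChar_self B hB
  let E : {b : {b : MonoidAlgebra k (stab s.1) // IsBlock b} //
      centralChar b.1 (trunc (stab s.1) B) = 1} ≃
      {b : MonoidAlgebra k (stab s.1) // IsBlock b ∧ InducesTo b B} :=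
    { toFun := fun b => ⟨b.1.1, b.1.2, (hind _ b.1.2).1 b.2⟩
      invFun := fun b => ⟨⟨b.1, b.2.1⟩, (hind _ b.2.1).2 b.2.2⟩
      left_inv := fun _ => rfl
      right_inv := fun _ => rfl }
  rw [← finsum_comp_equiv E, finsum_eq_sum_of_fintype]
  refine Finset.sum_congr rfl fun b _ => ?_
  rw [← hμ1 b.1.1 b.1.2.1, ← numWc_eq_card p red b.1.2.1, ← numWeightsIn_eq_numWc p red b.1.2]
  rfl

/-- **(M0) The exact Knörr–Robinson recursion of a block.** -/
theorem krSum_eq {B : MonoidAlgebra k G} (hB : P179B.IsBlock B) {D : Subgroup G}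
    (hD : P179B.IsDefectGroup B D) (hD1 : D ≠ ⊥) :
    P179B.krSum p B = ((P179B.numSimpleIn B : ℤ) - P179B.numWeightsIn p red B) +
      ∑ᶠ c : Quot (NChain.Conj (p := p) (G := G)), (-1) ^ c.out.1.card *
        ∑ᶠ b : {b : MonoidAlgebra k (chainStab c.out.1) //
            P179B.IsBlock b ∧ P179B.InducesTo b B},
          ((P179B.numSimpleIn b.1 : ℤ) - P179B.numWeightsIn p red b.1) := by
  have := Fintype.ofFinite G
  have hfin : Finite (NChain p G) := inferInstance
  have := Fintype.ofFinite (Quot (NChain.Conj (p := p) (G := G)))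
  have hw := weights_cancel (p := p) red hB hD hD1
  have hI : ∀ (H : Subgroup G) (b : MonoidAlgebra k H), P179B.InducesTo b B ↔ InducesTo b B := by
    intro H b
    have htr : ∀ z : MonoidAlgebra k G, P179B.trunc H z = trunc H z := fun _ => rfl
    unfold P179B.InducesTo InducesTo
    simp only [P179B.centralChar_eq, htr]
  have key : ∀ s : NChain p G,
      ∑ᶠ b : {b : MonoidAlgebra k (chainStab s.1) // P179B.IsBlock b ∧ P179B.InducesTo b B},
          ((P179B.numSimpleIn b.1 : ℤ) - P179B.numWeightsIn p red b.1) =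
        (P179B.numSimpleOver (chainStab s.1) B : ℤ) - numW p red (trunc (stab s.1) B) := by
    intro s
    rw [numSimpleOver_eq hB s, sub_eq_finsum red s hB]
    let E : {b : MonoidAlgebra k (chainStab s.1) // P179B.IsBlock b ∧ P179B.InducesTo b B} ≃
        {b : MonoidAlgebra k (stab s.1) // IsBlock b ∧ InducesTo b B} :=
      { toFun := fun b => ⟨b.1, b.2.1, (hI _ b.1).1 b.2.2⟩
        invFun := fun b => ⟨b.1, b.2.1, (hI _ b.1).2 b.2.2⟩
        left_inv := fun _ => rfl
        right_inv := fun _ => rfl }
    rw [← finsum_comp_equiv E]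
    refine finsum_congr fun b => ?_
    rw [P179B.numSimpleIn_eq, P179B.numWeightsIn_eq]
    rfl
  rw [P179B.krSum, finsum_eq_sum_of_fintype, finsum_eq_sum_of_fintype]
  have h1 : ∀ c : Quot (NChain.Conj (p := p) (G := G)), (-1 : ℤ) ^ c.out.1.card *
      ∑ᶠ b : {b : MonoidAlgebra k (chainStab c.out.1) //
            P179B.IsBlock b ∧ P179B.InducesTo b B},
          ((P179B.numSimpleIn b.1 : ℤ) - P179B.numWeightsIn p red b.1) =
      (-1 : ℤ) ^ c.out.1.card * (P179B.numSimpleOver (chainStab c.out.1) B : ℤ) -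
        (-1) ^ c.out.1.card * (numW p red (trunc (stab c.out.1) B) : ℤ) := by
    intro c
    rw [key c.out, mul_sub]
  rw [Finset.sum_congr rfl fun c _ => h1 c, Finset.sum_sub_distrib, P179B.numWeightsIn_eq]
  linarith

/-- if Alperin's weight conjecture holds for the blocks `b` of the stabilisers of the nonempty
normal chains with `b^G = B`, then the Knörr–Robinson sum of `B` is `l(B) - |W_p(B)|` -/
theorem krSum_eq_of_local {B : MonoidAlgebra k G} (hB : P179B.IsBlock B) {D : Subgroup G}
    (hD : P179B.IsDefectGroup B D) (hD1 : D ≠ ⊥)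
    (h : ∀ (s : NChain p G) (b : MonoidAlgebra k (chainStab s.1)), P179B.IsBlock b →
      P179B.InducesTo b B → P179B.numSimpleIn b = P179B.numWeightsIn p red b) :
    P179B.krSum p B = (P179B.numSimpleIn B : ℤ) - P179B.numWeightsIn p red B := by
  rw [krSum_eq red hB hD hD1, add_eq_left]
  refine finsum_eq_zero_of_forall_eq_zero fun c => ?_
  rw [mul_eq_zero]
  right
  refine finsum_eq_zero_of_forall_eq_zero fun b => ?_
  rw [h c.out b.1 b.2.1 b.2.2, sub_self]

end Main

end P179H725
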