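import Vale.Agent.P179.R2.H725.Below
import Vale.Agent.P179.R2.H854.Qu2
import Vale.Agent.P179.R2.H292.ExpDvd
import Vale.Agent.P179.R2.H443.Glue
import Vale.Agent.P179.H905.K4

/-!
# The congruence modulo a power of `p`: the induction
-/

namespace P179H725

open Subgroup P179H524 P179A P179K P179R P179C

open P179B (NChain inertialGroup inertialIndex)

open scoped Classical

universe u

section Star

variable {p : ℕ} {a : ℕ} {G : Type*} [Group G]

/-- the elements of `T` centralising `D ^ (p ^ a)` centralise `D` -/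
def Star (p a : ℕ) {G : Type*} [Group G] (D T : Subgroup G) : Prop :=
  ∀ n ∈ T, (∀ d ∈ D, n * d ^ p ^ a * n⁻¹ = d ^ p ^ a) → n ∈ centralizer (D : Set G)

theorem star_below {D T : Subgroup G} (h : Star p a D T) {H : Subgroup G} {E TE : Subgroup H}
    {g : G} (h1 : ∀ x ∈ D, g * x * g⁻¹ ∈ H) (h2 : ∀ x : H, x ∈ E ↔ g⁻¹ * x * g ∈ D)
    (h3 : ∀ n : H, n ∈ TE ↔ g⁻¹ * n * g ∈ T) : Star p a E TE := by
  intro n hn hnd
  have h4 : g⁻¹ * n * g ∈ centralizer (D : Set G) := by
    refine h _ ((h3 n).1 hn) fun d hd => ?_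
    have h5 := hnd ⟨g * d * g⁻¹, h1 d hd⟩ ((h2 _).2 (by
      have : g⁻¹ * (g * d * g⁻¹) * g = d := by group
      change g⁻¹ * (g * d * g⁻¹) * g ∈ D
      rwa [this]))
    have h6 : (n : G) * (g * d * g⁻¹) ^ p ^ a * (n : G)⁻¹ = (g * d * g⁻¹) ^ p ^ a :=
      congrArg Subtype.val h5
    rw [conj_pow] at h6
    calc g⁻¹ * n * g * d ^ p ^ a * (g⁻¹ * n * g)⁻¹
        = g⁻¹ * (n * (g * d ^ p ^ a * g⁻¹) * (n : G)⁻¹) * g := by group
      _ = d ^ p ^ a := by rw [h6]; group
  rw [mem_centralizer_iff] at h4 ⊢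
  intro x hx
  have h5 := h4 _ ((h2 x).1 hx)
  apply Subtype.ext
  change (x : G) * n = n * x
  calc (x : G) * n = g * (g⁻¹ * x * g * (g⁻¹ * n * g)) * g⁻¹ := by group
    _ = n * x := by rw [h5]; group

theorem pow_relIndex_mem {C T : Subgroup G} (hN : (C.subgroupOf T).Normal) {n : G} (hn : n ∈ T) :
    n ^ C.relIndex T ∈ C := by
  have h1 : (⟨n, hn⟩ : T) ^ (C.subgroupOf T).index ∈ C.subgroupOf T := pow_index_mem _ _
  exact h1

theorem subgroupOf_centralizer_normal {D T : Subgroup G} (hT : T ≤ normalizer (D : Set G)) :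
    ((centralizer (D : Set G)).subgroupOf T).Normal := by
  refine ⟨fun c hc n => ?_⟩
  rw [mem_subgroupOf] at hc ⊢
  change (n : G) * c * (n : G)⁻¹ ∈ _
  rw [mem_centralizer_iff] at hc ⊢
  intro x hx
  have h1 : (n : G)⁻¹ * x * n ∈ D := by
    have := (mem_normalizer_iff.1 (inv_mem (hT n.2)) x).1 hx
    rwa [inv_inv] at this
  have h2 := hc _ h1
  calc x * (n * c * (n : G)⁻¹) = n * ((n : G)⁻¹ * x * n * c) * (n : G)⁻¹ := by group
    _ = n * c * (n : G)⁻¹ * x := by rw [h2]; group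

/-- homocyclic groups satisfy the condition -/
theorem star_homocyclic [hp : Fact p.Prime] {D T : Subgroup G} (hD : IsPGroup p D)
    (hab : ∀ x ∈ D, ∀ y ∈ D, x * y = y * x)
    (hh : ∀ x ∈ D, x ^ p = 1 → ∃ y ∈ D, y ^ p ^ a = x) (hT : T ≤ normalizer (D : Set G))
    (he : ¬ p ∣ (centralizer (D : Set G)).relIndex T) : Star p a D T := by
  intro n hn hnd
  have hne := pow_relIndex_mem (subgroupOf_centralizer_normal hT) hn
  set e := (centralizer (D : Set G)).relIndex T with he'
  have hfix : ∀ x ∈ D, x ^ p = 1 → n * x * n⁻¹ = x := by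
    intro x hx hxp
    obtain ⟨y, hy, rfl⟩ := hh x hx hxp
    exact hnd y hy
  have hcl : ∀ x ∈ D, n * x * n⁻¹ ∈ D := fun x hx => (mem_normalizer_iff.1 (hT hn) x).1 hx
  have key : ∀ m : ℕ, ∀ x ∈ D, x ^ p ^ m = 1 → n * x * n⁻¹ = x := by
    intro m
    induction m with
    | zero =>
      intro x _ hx
      rw [pow_zero, pow_one] at hx
      rw [hx]; group
    | succ m ih =>
      intro x hx hxm
      have h1 : n * x ^ p * n⁻¹ = x ^ p := by
        refine ih _ (pow_mem hx p) ?_
        rw [← pow_mul, ← pow_succ']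
        exact hxm
      have hxi : x⁻¹ ∈ D := inv_mem hx
      obtain ⟨c, hc⟩ : ∃ c, c = n * x * n⁻¹ * x⁻¹ := ⟨_, rfl⟩
      have hcD : c ∈ D := hc ▸ mul_mem (hcl x hx) hxi
      have hcx : n * x * n⁻¹ = c * x := by rw [hc]; group
      have hcp : c ^ p = 1 := by
        have h2 : Commute (n * x * n⁻¹) x⁻¹ := hab _ (hcl x hx) _ hxi
        rw [hc, h2.mul_pow, conj_pow, h1, inv_pow, mul_inv_cancel]
      have hcn := hfix c hcD hcp
      have hit : ∀ j : ℕ, n ^ j * x * (n ^ j)⁻¹ = c ^ j * x := by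
        intro j
        induction j with
        | zero => simp
        | succ j ihj =>
          calc n ^ (j + 1) * x * (n ^ (j + 1))⁻¹ = n * (n ^ j * x * (n ^ j)⁻¹) * n⁻¹ := by
                rw [pow_succ']; group
            _ = (n * c * n⁻¹) ^ j * (n * x * n⁻¹) := by
                rw [ihj, conj_pow]; group
            _ = c ^ (j + 1) * x := by rw [hcn, hcx, pow_succ, mul_assoc]
      have hce : c ^ e = 1 := by
        have h3 := hit e
        rw [mem_centralizer_iff] at hne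
        rw [← hne x hx] at h3
        have h4 : x * n ^ e * (n ^ e)⁻¹ = x := by group
        rw [h4] at h3
        exact (mul_eq_right.1 h3.symm)
      have hc1 : c = 1 := by
        have h5 : orderOf c ∣ 1 := by
          rw [← (Nat.Prime.coprime_iff_not_dvd hp.out).2 he]
          exact Nat.dvd_gcd (orderOf_dvd_of_pow_eq_one hcp) (orderOf_dvd_of_pow_eq_one hce)
        exact orderOf_eq_one_iff.1 (Nat.dvd_one.1 h5)
      rw [hcx, hc1, one_mul]
  rw [mem_centralizer_iff]
  intro x hx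
  obtain ⟨m, hm⟩ := hD ⟨x, hx⟩
  have h6 := key m x hx (congrArg Subtype.val hm)
  calc x * n = n * x * n⁻¹ * n := by rw [h6]
    _ = n * x := by group

/-- an element of `T` centralising `R` but not `D` -/
theorem star_notMem {D T : Subgroup G} (h : Star p a D T) {R : Subgroup G} {n : G} (hn : n ∈ T)
    (hR : n ∈ centralizer (R : Set G)) (hnD : n ∉ centralizer (D : Set G)) :
    ∃ d ∈ D, d ^ p ^ a ∉ R := by
  by_contra hcon
  push Not at hcon
  apply hnD
  refine h n hn fun d hd => ?_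
  rw [← mem_centralizer_iff.1 hR _ (hcon d hd)]
  group

end Star

section Op

/-- the largest normal `p`-subgroup -/
theorem exists_Op (p : ℕ) (G : Type*) [Group G] [Finite G] :
    ∃ R : Subgroup G, ∃ _ : R.Normal, IsPGroup p R ∧ OpTrivial p (G ⧸ R) := by
  have hne : ∃ R : Subgroup G, R.Normal ∧ IsPGroup p R :=
    ⟨⊥, inferInstance, IsPGroup.of_bot⟩
  obtain ⟨R, ⟨hRn, hR⟩, hmax⟩ := (Set.toFinite {R : Subgroup G | R.Normal ∧ IsPGroup p R}
    ).exists_maximal hne
  refine ⟨R, hRn, hR, fun S hS hSp => ?_⟩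
  have h1 : (S.comap (QuotientGroup.mk' R)).Normal := hS.comap _
  have h2 : IsPGroup p (S.comap (QuotientGroup.mk' R)) :=
    hSp.comap_of_ker_isPGroup _ (by rw [QuotientGroup.ker_mk']; exact hR)
  have h3 : R ≤ S.comap (QuotientGroup.mk' R) := by
    intro r hr
    rw [mem_comap, QuotientGroup.mk'_apply, (QuotientGroup.eq_one_iff r).2 hr]
    exact one_mem S
  have h4 := hmax ⟨h1, h2⟩ h3
  rw [eq_bot_iff]
  intro x hx
  obtain ⟨g, rfl⟩ := QuotientGroup.mk'_surjective R x
  have h5 : g ∈ R := h4 hx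
  rw [QuotientGroup.mk'_apply, (QuotientGroup.eq_one_iff g).2 h5]
  exact one_mem _

end Op

section Ind

variable (p : ℕ) [hp : Fact p.Prime] {k : Type u} [Field k] [IsAlgClosed k] [hk : CharP k p]
  (red : integralClosure ℤ ℂ →+* k)

/-- equality for the blocks with a normal `p`-subgroup `R` such that the elements of the inertial
group centralising `R` centralise `D` -/
def EqRel : Prop :=
  ∀ (G : Type) [Group G] [Finite G] (B : MonoidAlgebra k G) (D : Subgroup G)
    (β : MonoidAlgebra k (centralizer (D : Set G))) (R : Subgroup G) [R.Normal],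
    IsPGroup p R → R ≠ ⊥ → IsBlock B → IsDefectGroup B D →
    (∀ a ∈ D, ∀ b ∈ D, a * b = b * a) → IsBlock β → InducesTo β B →
    (∀ n ∈ inertialGroup D β, n ∈ centralizer (R : Set G) → n ∈ centralizer (D : Set G)) →
    numSimpleIn B = numWeightsIn p red B

/-- the defect groups of the blocks of `G / R` -/
def DefQuo (k : Type u) [Field k] : Prop :=
  ∀ (G : Type) [Group G] [Finite G] (B : MonoidAlgebra k G) (D R : Subgroup G) [R.Normal]
    (B' : MonoidAlgebra k (G ⧸ R)), IsPGroup p R → IsBlock B → IsDefectGroup B D →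
    (∀ a ∈ D, ∀ b ∈ D, a * b = b * a) → IsBlock B' → B' * quo R B = B' →
    ∃ (D' : Subgroup (G ⧸ R)) (g : G ⧸ R), IsDefectGroup B' D' ∧
      ∀ x, x ∈ D' ↔ g⁻¹ * x * g ∈ D.map (QuotientGroup.mk' R)

variable {p}

/-- **The congruence modulo `p ^ (a + 1)`**, relative to `EqRel` and `DefQuo`. -/
theorem dvd_delta_of (hkr : P179H292.KrWr p k) (hEq : EqRel p red) (hQ : DefQuo p k) (a : ℕ) :
    ∀ (N : ℕ) (G : Type) [Group G] [Finite G], Nat.card G = N →
      ∀ (B : MonoidAlgebra k G) (D : Subgroup G) (β : MonoidAlgebra k (centralizer (D : Set G))),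
      IsBlock B → IsDefectGroup B D → (∀ a ∈ D, ∀ b ∈ D, a * b = b * a) → IsBlock β →
      InducesTo β B → Star p a D (inertialGroup D β) →
      (p : ℤ) ^ (a + 1) ∣ (numSimpleIn B : ℤ) - numWeightsIn p red B := by
  intro N
  induction N using Nat.strong_induction_on with
  | _ N ih =>
  intro G _ _ hN B D β hB hD hab hβ hβB hstar
  have := Fintype.ofFinite G
  by_cases hT : ∀ n ∈ inertialGroup D β, n ∈ centralizer (D : Set G)
  · have h1 : inertialIndex D β = 1 := relIndex_eq_one.2 hT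
    have h2 := P179I.equality_half red hB hD hab hβ hβB (by rw [h1]; exact hp.out.two_le)
    rw [h2, sub_self]
    exact dvd_zero _
  obtain ⟨R, hRn, hR, hO⟩ := exists_Op p G
  by_cases hC : ∀ n ∈ inertialGroup D β, n ∈ centralizer (R : Set G) →
      n ∈ centralizer (D : Set G)
  · have hR1 : R ≠ ⊥ := by
      rintro rfl
      apply hT
      intro n hn
      refine hC n hn ?_
      rw [mem_centralizer_iff]
      intro x hx
      rw [SetLike.mem_coe, mem_bot] at hx
      rw [hx, one_mul, mul_one]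
    rw [hEq G B D β R hR hR1 hB hD hab hβ hβB hC, sub_self]
    exact dvd_zero _
  push Not at hC
  obtain ⟨n, hn, hnR, hnD⟩ := hC
  obtain ⟨d, hd, hdR⟩ := star_notMem hstar hn hnR hnD
  have hbelow : ∀ B' : MonoidAlgebra k (G ⧸ R), IsBlock B' → B' * quo R B = B' →
      ∃ D' : Subgroup (G ⧸ R), IsDefectGroup B' D' ∧ ∃ z : D', z ∈ center D' ∧
        z ^ p ^ a ∉ commutator D' := by
    intro B' hB' hBB'
    obtain ⟨D', g, hD', hg⟩ := hQ G B D R B' hR hB hD hab hB' hBB'
    have habD : ∀ x ∈ D', ∀ y ∈ D', x * y = y * x := by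
      intro x hx y hy
      obtain ⟨x0, hx0, hx1⟩ := (hg x).1 hx
      obtain ⟨y0, hy0, hy1⟩ := (hg y).1 hy
      have h1 : (QuotientGroup.mk' R) (x0 * y0) = (QuotientGroup.mk' R) (y0 * x0) :=
        congrArg _ (hab x0 hx0 y0 hy0)
      rw [map_mul, map_mul, hx1, hy1] at h1
      calc x * y = g * (g⁻¹ * x * g * (g⁻¹ * y * g)) * g⁻¹ := by group
        _ = y * x := by rw [h1]; group
    have hcomm : commutator D' = ⊥ := by
      rw [_root_.commutator_def, commutator_eq_bot_iff_le_centralizer]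
      intro x _
      rw [mem_centralizer_iff]
      intro y _
      exact Subtype.ext (habD y y.2 x x.2)
    have hz : g * (d : G ⧸ R) * g⁻¹ ∈ D' := by
      rw [hg]
      have : g⁻¹ * (g * (d : G ⧸ R) * g⁻¹) * g = d := by group
      rw [this]
      exact ⟨d, hd, rfl⟩
    refine ⟨D', hD', ⟨_, hz⟩, ?_, ?_⟩
    · rw [Subgroup.mem_center_iff]
      intro y
      exact Subtype.ext (habD y y.2 _ hz)
    · rw [hcomm, mem_bot]
      intro h1
      have h2 : (g * (d : G ⧸ R) * g⁻¹) ^ p ^ a = 1 := congrArg Subtype.val h1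
      rw [conj_pow] at h2
      have h3 : ((d : G ⧸ R)) ^ p ^ a = 1 := by
        calc (d : G ⧸ R) ^ p ^ a = g⁻¹ * (g * (d : G ⧸ R) ^ p ^ a * g⁻¹) * g := by group
          _ = 1 := by rw [h2]; group
      apply hdR
      rw [← QuotientGroup.eq_one_iff]
      exact h3
  refine P179H854.delta_dvd_quo (R := R) red hR hO hB _ ?_ ?_ ?_
  · intro B' hB' hBB'
    obtain ⟨D', hD', z, -, hz⟩ := hbelow B' hB' hBB'
    refine ⟨D', hD', ?_⟩
    rintro rfl
    apply hz
    have : z ^ p ^ a = 1 := Subsingleton.elim _ _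
    rw [this]
    exact one_mem _
  · intro B' hB' hBB'
    obtain ⟨D', hD', z, hz, hz1⟩ := hbelow B' hB' hBB'
    exact P179H292.pow_dvd_krSum hkr a (G ⧸ R) B' hB' D' hD' z hz hz1
  · intro s _ hs b hb hbB
    obtain ⟨M, hMs, -, hMp, hM1, hMle, hMn, hMC⟩ := exists_top s
    have hHM : stab s.1 ≤ normalizer (M : Set G) := fun g hg => (mem_stab.1 hg) M hMs
    obtain ⟨E, ε, g, hE, -, hEab, hε, hεb, -, -, hg1, hg2, hg3⟩ :=
      below_data hB hD hab hβ hβB hMp hMle hHM hMC hb hbB
    refine ih (Nat.card (stab s.1)) ?_ (stab s.1) rfl b E ε hb hE hEab hε hεb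
      (star_below hstar hg1 hg2 hg3)
    rw [← hN]
    exact lt_of_le_of_ne (card_le_card_group (stab s.1)) fun h => hs (card_eq_iff_eq_top _ |>.1 h)

end Ind

end P179H725
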