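import Mathlib

/-!
# The numbers of the mass bound for cyclic factors of order at least `p ^ 2` or `p ^ 3`
-/

namespace P179H725

/-- the value of the mass, at level `m` -/
theorem mass_ge {m : ℕ} (hm : 2 ≤ m) {P E Q W : ℤ} (hE : 1 ≤ E) (hEP : E + 2 ≤ P) (hQ : 0 < Q)
    (hw : P ^ m * (Q - W) ≤ (E - 1) * Q) :
    Q * (P - 2 - E) < (P - 1) * W - Q * E := by
  have hP : 3 ≤ P := by linarith
  have hP0 : 0 < P ^ m := pow_pos (by linarith) m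
  have hP2 : P ^ 2 ≤ P ^ m := pow_le_pow_right₀ (by linarith) hm
  have h1 : (P - 1) * (P ^ m * (Q - W)) ≤ (P - 1) * ((E - 1) * Q) :=
    mul_le_mul_of_nonneg_left hw (by linarith)
  have h2 : (P - 1) * (E - 1) < P ^ m := by nlinarith
  have h3 : (P - 1) * (E - 1) * Q < P ^ m * Q := mul_lt_mul_of_pos_right h2 hQ
  have h4 : P ^ m * (Q * (P - 2 - E)) < P ^ m * ((P - 1) * W - Q * E) := by nlinarith
  exact lt_of_mul_lt_mul_left h4 hP0.le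

/-- cyclic factors of order at least `p ^ m`, `m ≥ 2`, and `e ≤ (p - 2 - e) ^ 2` -/
theorem mass_two_int {m : ℕ} (hm : 2 ≤ m) {P E Q W L : ℤ} (hE : 1 ≤ E) (hEP : E + 2 ≤ P)
    (hE2 : E ≤ (P - 2 - E) ^ 2) (hQ : 0 < Q) (hW0 : 0 ≤ W) (hWQ : W ≤ Q)
    (hw : P ^ m * (Q - W) ≤ (E - 1) * Q)
    (h : L * ((P - 1) * W - Q * E) ^ 2 ≤ (P - 2) ^ 2 * (Q * E * W)) : L ≤ P ^ 2 := by
  have h1 := mass_ge hm hE hEP hQ hw
  set A := (P - 1) * W - Q * E with hA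
  have hs : 0 ≤ P - 2 - E := by linarith
  have hQs : 0 ≤ Q * (P - 2 - E) := mul_nonneg hQ.le hs
  have hA0 : 0 < A := lt_of_le_of_lt hQs h1
  have h2 : (Q * (P - 2 - E)) ^ 2 ≤ A ^ 2 := pow_le_pow_left₀ hQs h1.le 2
  have h3 : Q * E * W ≤ Q * E * Q := mul_le_mul_of_nonneg_left hWQ (by nlinarith)
  have h4 : Q * E * Q ≤ (Q * (P - 2 - E)) ^ 2 := by
    have h5 : Q ^ 2 * E ≤ Q ^ 2 * (P - 2 - E) ^ 2 := mul_le_mul_of_nonneg_left hE2 (sq_nonneg Q)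
    calc Q * E * Q = Q ^ 2 * E := by ring
      _ ≤ Q ^ 2 * (P - 2 - E) ^ 2 := h5
      _ = _ := by ring
  have h6 : (P - 2) ^ 2 * (Q * E * W) ≤ P ^ 2 * A ^ 2 := by
    have h7 : (P - 2) ^ 2 ≤ P ^ 2 := pow_le_pow_left₀ (by linarith) (by linarith) 2
    have h8 : Q * E * W ≤ A ^ 2 := (h3.trans h4).trans h2
    have h9 : 0 ≤ Q * E * W := mul_nonneg (mul_nonneg hQ.le (by linarith)) hW0
    exact mul_le_mul h7 h8 h9 (sq_nonneg P)
  have h10 : L * A ^ 2 ≤ P ^ 2 * A ^ 2 := h.trans h6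
  exact le_of_mul_le_mul_right h10 (pow_pos hA0 2)

/-- cyclic factors of order at least `p ^ 3` and `e + 1 < p` -/
theorem mass_three_int {P E Q W L : ℤ} (hE : 1 ≤ E) (hEP : E + 2 ≤ P) (hQ : 0 < Q)
    (hW0 : 0 ≤ W) (hWQ : W ≤ Q) (hw : P ^ 3 * (Q - W) ≤ (E - 1) * Q)
    (h : L * ((P - 1) * W - Q * E) ^ 2 ≤ (P - 2) ^ 2 * (Q * E * W)) : L ≤ P ^ 3 := by
  have hP : 3 ≤ P := by linarith
  have hQs := mass_ge (m := 3) (by norm_num) hE hEP hQ hw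
  set A := (P - 1) * W - Q * E with hA
  have hA0 : 0 < A := lt_of_le_of_lt (mul_nonneg hQ.le (by linarith)) hQs
  -- `P ^ 3 A ≥ Q (P ^ 3 - (P - 1) (P - 3))`
  have hc : 0 ≤ P ^ 3 - (P - 1) * (P - 3) := by nlinarith [sq_nonneg P, sq_nonneg (P - 1)]
  have h1 : Q * (P ^ 3 - (P - 1) * (P - 3)) ≤ P ^ 3 * A := by
    have h2 : (P - 1) * (P ^ 3 * (Q - W)) ≤ (P - 1) * ((E - 1) * Q) :=
      mul_le_mul_of_nonneg_left hw (by linarith)
    have h3 : (P - 1) * (E - 1) ≤ (P - 1) * (P - 3) :=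
      mul_le_mul_of_nonneg_left (by linarith) (by linarith)
    have h4 : (P - 1) * (E - 1) * Q ≤ (P - 1) * (P - 3) * Q :=
      mul_le_mul_of_nonneg_right h3 hQ.le
    have h5 : P ^ 3 * Q * 1 ≤ P ^ 3 * Q * (P - 1 - E) :=
      mul_le_mul_of_nonneg_left (by linarith) (mul_nonneg (pow_nonneg (by linarith) 3) hQ.le)
    nlinarith
  have h2 : (Q * (P ^ 3 - (P - 1) * (P - 3))) ^ 2 ≤ (P ^ 3 * A) ^ 2 :=
    pow_le_pow_left₀ (mul_nonneg hQ.le hc) h1 2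
  -- the numbers
  have h3 : (P - 2) ^ 3 * P ^ 3 ≤ (P ^ 3 - (P - 1) * (P - 3)) ^ 2 := by
    obtain ⟨x, rfl⟩ : ∃ x, P = x + 3 := ⟨P - 3, by ring⟩
    have hx : 0 ≤ x := by linarith
    nlinarith [pow_nonneg hx 2, pow_nonneg hx 3, pow_nonneg hx 4, pow_nonneg hx 5,
      pow_nonneg hx 6]
  have h5 : Q * E * W ≤ Q * (P - 2) * Q := by
    have h6 : Q * E ≤ Q * (P - 2) := mul_le_mul_of_nonneg_left (by linarith) hQ.le
    exact mul_le_mul h6 hWQ hW0 (mul_nonneg hQ.le (by linarith))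
  have h7 : (P - 2) ^ 2 * (Q * E * W) * P ^ 3 ≤ P ^ 3 * A ^ 2 * P ^ 3 := by
    have h8 : (P - 2) ^ 2 * (Q * E * W) ≤ (P - 2) ^ 2 * (Q * (P - 2) * Q) :=
      mul_le_mul_of_nonneg_left h5 (sq_nonneg _)
    have h9 : (P - 2) ^ 2 * (Q * (P - 2) * Q) * P ^ 3 ≤ (Q * (P ^ 3 - (P - 1) * (P - 3))) ^ 2 := by
      have h10 : Q ^ 2 * ((P - 2) ^ 3 * P ^ 3) ≤ Q ^ 2 * (P ^ 3 - (P - 1) * (P - 3)) ^ 2 :=
        mul_le_mul_of_nonneg_left h3 (sq_nonneg Q)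
      nlinarith
    have h11 : (P - 2) ^ 2 * (Q * E * W) * P ^ 3 ≤
        (P - 2) ^ 2 * (Q * (P - 2) * Q) * P ^ 3 :=
      mul_le_mul_of_nonneg_right h8 (pow_nonneg (by linarith) 3)
    calc _ ≤ _ := h11
      _ ≤ _ := h9
      _ ≤ _ := h2
      _ = _ := by ring
  have h12 : (P - 2) ^ 2 * (Q * E * W) ≤ P ^ 3 * A ^ 2 :=
    le_of_mul_le_mul_right h7 (pow_pos (by linarith) 3)
  exact le_of_mul_le_mul_right (h.trans h12) (pow_pos hA0 2)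

/-- natural numbers, cyclic factors of order at least `p ^ 2` -/
theorem mass_two {p e q w l : ℕ} (he1 : 1 ≤ e) (he : e + 2 ≤ p) (he2 : e ≤ (p - 2 - e) ^ 2)
    (hq : 0 < q) (hwq : w ≤ q) (hw : p ^ 2 * (q - w) ≤ (e - 1) * q)
    (h : (l : ℤ) * (((p : ℤ) - 1) * w - q * e) ^ 2 ≤ ((p : ℤ) - 2) ^ 2 * (q * e * w)) :
    l ≤ p ^ 2 := by
  have h1 : (l : ℤ) ≤ (p : ℤ) ^ 2 := by
    refine mass_two_int (m := 2) le_rfl (E := e) (Q := q) (W := w) (by exact_mod_cast he1)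
      (by exact_mod_cast he) ?_ (by exact_mod_cast hq) (Int.natCast_nonneg w)
      (by exact_mod_cast hwq) ?_ h
    · obtain ⟨c, rfl⟩ : ∃ c, p = e + 2 + c := ⟨p - (e + 2), by omega⟩
      have h2 : e + 2 + c - 2 - e = c := by omega
      rw [h2] at he2
      push_cast
      have h3 : ((e : ℤ) + 2 + c - 2 - e) = c := by ring
      rw [h3]
      exact_mod_cast he2
    · have h2 : ((p ^ 2 * (q - w) : ℕ) : ℤ) ≤ (((e - 1) * q : ℕ) : ℤ) := by exact_mod_cast hw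
      push_cast [Nat.cast_sub hwq, Nat.cast_sub he1] at h2
      exact h2
  exact_mod_cast h1

/-- natural numbers, cyclic factors of order at least `p ^ 3` -/
theorem mass_three {p e q w l : ℕ} (he1 : 1 ≤ e) (he : e + 2 ≤ p)
    (hq : 0 < q) (hwq : w ≤ q) (hw : p ^ 3 * (q - w) ≤ (e - 1) * q)
    (h : (l : ℤ) * (((p : ℤ) - 1) * w - q * e) ^ 2 ≤ ((p : ℤ) - 2) ^ 2 * (q * e * w)) :
    l ≤ p ^ 3 := by
  have h1 : (l : ℤ) ≤ (p : ℤ) ^ 3 := by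
    refine mass_three_int (E := e) (Q := q) (W := w) (by exact_mod_cast he1)
      (by exact_mod_cast he) (by exact_mod_cast hq) (Int.natCast_nonneg w)
      (by exact_mod_cast hwq) ?_ h
    have h2 : ((p ^ 3 * (q - w) : ℕ) : ℤ) ≤ (((e - 1) * q : ℕ) : ℤ) := by exact_mod_cast hw
    push_cast [Nat.cast_sub hwq, Nat.cast_sub he1] at h2
    exact h2
  exact_mod_cast h1

end P179H725
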