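import Vale.Agent.P179.H166.KN4
import Vale.Agent.P179.H166.WG

/-!
# The exact Knörr–Robinson recursion of a block, I: the weights of the subgroups of `G`
-/

namespace P179H725

open Subgroup P179H524 P179A P179K P179R P179C P179N

open scoped Classical

section Def

variable {k : Type*} [Field k] (red : integralClosure ℤ ℂ →+* k) {G : Type} [Group G]

/-- `χ` is supported on `K`, its restriction to `K` is the inflation of a character of defect zero
of `K/R` and the value of its central character at `z` is `1` -/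
def IsW (p : ℕ) (z : G → k) (K R : Subgroup G) (χ : G → ℂ) : Prop :=
  (∀ x, x ∉ K → χ x = 0) ∧ IsIrrChar (fun n : K => χ n) ∧ (∀ r ∈ R, ∀ x, χ (x * r) = χ x) ∧
    (∃ d : ℕ, χ 1 = d ∧ (d * Nat.card R).factorization p = (Nat.card K).factorization p) ∧
    lam red (fun n : K => χ n) (fun n : K => z n) = 1

/-- the number of these characters -/
noncomputable def cnt (p : ℕ) (z : G → k) (K R : Subgroup G) : ℕ :=
  Nat.card {χ : G → ℂ // IsW red p z K R χ}

theorem finite_isW [Finite G] (p : ℕ) (z : G → k) (K R : Subgroup G) :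
    Finite {χ : G → ℂ // IsW red p z K R χ} := by
  let f : {χ : G → ℂ // IsW red p z K R χ} → P179P.Irr K := fun χ => ⟨fun n => χ.1 n, χ.2.2.1⟩
  refine Finite.of_injective f ?_
  intro a b h
  apply Subtype.ext
  funext x
  by_cases hx : x ∈ K
  · exact congrFun (congrArg Subtype.val h) ⟨x, hx⟩
  · rw [a.2.1 x hx, b.2.1 x hx]

end Def

section Orbit

variable {p : ℕ} {k : Type*} [Field k] (red : integralClosure ℤ ℂ →+* k) {G : Type} [Group G]

theorem map_conj_eq_iff (w : WF p G) (g : G) :
    w.map (MulAut.conj g⁻¹) = w ↔ g ∈ normalizer (w.R : Set G) := by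
  constructor
  · intro h
    rw [mem_normalizer_iff]
    intro x
    have h1 : ∀ y, g⁻¹ * y * g ∈ w.R ↔ y ∈ w.R := by
      intro y
      have h2 : (w.map (MulAut.conj g⁻¹)).R = w.R := congrArg WF.R h
      have h3 : y ∈ (w.map (MulAut.conj g⁻¹)).R ↔ y ∈ w.R := by rw [h2]
      rw [WF.mem_map_R, MulAut.conj_apply, inv_inv] at h3
      exact h3
    have h2 := h1 (g * x * g⁻¹)
    have h3 : g⁻¹ * (g * x * g⁻¹) * g = x := by group
    rw [h3] at h2
    exact h2
  · intro h
    refine WF.ext' ?_ (funext fun x => ?_)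
    · ext x
      rw [WF.mem_map_R, MulAut.conj_apply, inv_inv]
      have h1 := mem_normalizer_iff.1 (inv_mem h) x
      rw [inv_inv] at h1
      exact h1.symm
    · rw [WF.map_χ, MulAut.conj_apply, inv_inv]
      by_cases hx : x ∈ normalizer (w.R : Set G)
      · have h1 := w.irr.conj ⟨g⁻¹, inv_mem h⟩ ⟨x, hx⟩
        have h2 : (((⟨g⁻¹, inv_mem h⟩ * ⟨x, hx⟩ * ⟨g⁻¹, inv_mem h⟩⁻¹ :
            normalizer (w.R : Set G)) : normalizer (w.R : Set G)) : G) = g⁻¹ * x * g := by
          change g⁻¹ * x * (g⁻¹)⁻¹ = _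
          rw [inv_inv]
        rw [← h2]
        exact h1
      · have hx' : g⁻¹ * x * g ∉ normalizer (w.R : Set G) := by
          intro h1
          apply hx
          have h2 := mul_mem (mul_mem h h1) (inv_mem h)
          have h3 : g * (g⁻¹ * x * g) * g⁻¹ = x := by group
          rwa [h3] at h2
        rw [w.supp x hx, w.supp _ hx']

/-- **Counting the weights of `G` in `e`.** -/
theorem card_mul_numW [Fact p.Prime] [Finite G] [Fintype (Subgroup G)] {e : MonoidAlgebra k G}
    (he : e ∈ Subalgebra.center k (MonoidAlgebra k G)) :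
    (Nat.card G : ℤ) * numW p red e =
      ∑ R ∈ (Finset.univ : Finset (Subgroup G)).filter (fun R : Subgroup G => IsPGroup p R),
        (Nat.card (normalizer (R : Set G)) : ℤ) *
          cnt red p (fun g => e.coeff g) (normalizer (R : Set G)) R := by
  have hrel : ∀ (w : WF p G) (g : G), WF.Rel w (w.map (MulAut.conj g)) := fun w g =>
    (WF.rel_iff' _ _).2 ⟨g, rfl⟩
  let X := {w : WF p G // w.In red e}
  have hX : Finite X := inferInstance
  have := Fintype.ofFinite X
  let act : MulAction G X :=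
    { smul := fun g w => ⟨w.1.map (MulAut.conj g⁻¹), (in_rel_iff red (hrel w.1 _) he).1 w.2⟩
      one_smul := fun w => Subtype.ext (by
        change w.1.map (MulAut.conj (1 : G)⁻¹) = w.1
        rw [inv_one, map_conj_one])
      mul_smul := fun a b w => Subtype.ext (by
        change w.1.map (MulAut.conj (a * b)⁻¹) =
          (w.1.map (MulAut.conj b⁻¹)).map (MulAut.conj a⁻¹)
        rw [map_conj_mul, mul_inv_rev]) }
  have hsm : ∀ (g : G) (w : X), (g • w).1 = w.1.map (MulAut.conj g⁻¹) := fun g w => rfl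
  have hr : ∀ a b : X, WF.Rel a.1 b.1 ↔ ∃ g : G, g • a = b := by
    intro a b
    rw [WF.rel_iff]
    refine exists_congr fun g => ?_
    rw [Subtype.ext_iff, hsm]
    exact eq_comm
  have := Fintype.ofFinite (Quot fun a b : X => WF.Rel a.1 b.1)
  have h1 := sum_quot (G := G) (X := X) (R := ℤ) (fun a b : X => WF.Rel a.1 b.1) hr (fun _ => 1)
    (fun _ _ => rfl)
  have h2 : (numW p red e : ℤ) = ∑ _c : Quot (fun a b : X => WF.Rel a.1 b.1), (1 : ℤ) := by
    unfold numW
    rw [Nat.card_eq_fintype_card, Finset.sum_const, Finset.card_univ, nsmul_eq_mul, mul_one]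
  rw [h2, ← h1]
  have h3 : ∀ w : X, MulAction.stabilizer G w = normalizer (w.1.R : Set G) := by
    intro w
    ext g
    rw [MulAction.mem_stabilizer_iff, Subtype.ext_iff, hsm, map_conj_eq_iff]
  have h4 : ∀ w : X, (Nat.card (MulAction.stabilizer G w) : ℤ) * 1 =
      (Nat.card (normalizer (w.1.R : Set G)) : ℤ) := fun w => by rw [h3, mul_one]
  rw [Finset.sum_congr rfl fun w _ => h4 w]
  let e1 : X ≃ Σ R : {R : Subgroup G // IsPGroup p R},
      {χ : G → ℂ // IsW red p (fun g => e.coeff g) (normalizer (R.1 : Set G)) R.1 χ} :=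
    { toFun := fun w => ⟨⟨w.1.R, w.1.pgp⟩, ⟨w.1.χ, w.1.supp, w.1.irr, w.1.triv, w.1.dz, w.2⟩⟩
      invFun := fun x => ⟨⟨x.1.1, x.2.1, x.1.2, x.2.2.1, x.2.2.2.1, x.2.2.2.2.1, x.2.2.2.2.2.1⟩,
        x.2.2.2.2.2.2⟩
      left_inv := fun _ => rfl
      right_inv := fun _ => rfl }
  have := fun R : {R : Subgroup G // IsPGroup p R} => finite_isW red p (fun g => e.coeff g)
    (normalizer (R.1 : Set G)) R.1
  have := fun R : {R : Subgroup G // IsPGroup p R} => Fintype.ofFinite
    {χ : G → ℂ // IsW red p (fun g => e.coeff g) (normalizer (R.1 : Set G)) R.1 χ}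
  rw [← e1.symm.sum_comp, Fintype.sum_sigma,
    Finset.sum_subtype (p := fun R : Subgroup G => IsPGroup p R) _ (fun R => by simp)]
  refine Finset.sum_congr rfl fun R _ => ?_
  unfold cnt
  rw [Nat.card_eq_fintype_card (α := {χ : G → ℂ //
    IsW red p (fun g => e.coeff g) (normalizer (R.1 : Set G)) R.1 χ})]
  change ∑ _y : {χ : G → ℂ // IsW red p (fun g => e.coeff g) (normalizer (R.1 : Set G)) R.1 χ},
    (Nat.card (normalizer (R.1 : Set G)) : ℤ) = _
  rw [Finset.sum_const, Finset.card_univ, nsmul_eq_mul, mul_comm]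

end Orbit

section Sub

variable {p : ℕ} {k : Type*} [Field k] (red : integralClosure ℤ ℂ →+* k) {G : Type} [Group G]
  [Finite G]

/-- the characters attached to a subgroup `R'` of `H`, seen inside `G` -/
theorem isW_sub (H : Subgroup G) {z : G → k} (hz : IsCF z) (R' : Subgroup H) (χ : G → ℂ)
    (hχ : ∀ x, x ∉ H → χ x = 0) :
    IsW red p (fun h : H => z h) (normalizer (R' : Set H)) R' (fun h : H => χ h) ↔
      IsW red p z (normalizer ((R'.map H.subtype : Subgroup G) : Set G) ⊓ H)
        (R'.map H.subtype) χ := by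
  have hnm := mem_normalizer_map_subtype R'
  let e := normalizerEquivInf H R'
  have he : ∀ x, ((e x : (normalizer ((R'.map H.subtype : Subgroup G) : Set G) ⊓ H :
      Subgroup G)) : G) = ((x : H) : G) := fun x => rfl
  have hes : ∀ y, (((e.symm y : normalizer (R' : Set H)) : H) : G) = (y : G) := fun y => rfl
  have hcard : Nat.card (R'.map H.subtype : Subgroup G) = Nat.card R' :=
    Nat.card_congr (R'.equivMapOfInjective H.subtype H.subtype_injective).symm.toEquiv
  have hcf : IsCF (fun n : (normalizer ((R'.map H.subtype : Subgroup G) : Set G) ⊓ H :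
      Subgroup G) => z n) := fun g x => hz g x
  unfold IsW
  refine and_congr ?_ ?_
  · constructor
    · intro h x hx
      by_cases hxH : x ∈ H
      · refine h ⟨x, hxH⟩ fun h1 => hx ⟨(hnm ⟨x, hxH⟩).2 h1, hxH⟩
      · exact hχ x hxH
    · intro h x hx
      refine h x fun h1 => hx ((hnm x).1 h1.1)
  have hirr : IsIrrChar (fun n : normalizer (R' : Set H) => χ ((n : H) : G)) ↔
      IsIrrChar (fun n : (normalizer ((R'.map H.subtype : Subgroup G) : Set G) ⊓ H :
        Subgroup G) => χ n) := by
    constructor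
    · intro h
      exact h.comp e.symm.toMonoidHom e.symm.surjective
    · intro h
      exact h.comp e.toMonoidHom e.surjective
  constructor
  · rintro ⟨h2, h3, h4, h5⟩
    refine ⟨hirr.1 h2, ?_, ?_, ?_⟩
    · rintro r ⟨r', hr', rfl⟩ x
      by_cases hxH : x ∈ H
      · exact h3 r' hr' ⟨x, hxH⟩
      · rw [hχ x hxH, hχ]
        intro h
        apply hxH
        have := mul_mem h (inv_mem r'.2)
        rwa [H.subtype_apply, mul_inv_cancel_right] at this
    · obtain ⟨d, hd1, hd2⟩ := h4
      refine ⟨d, hd1, ?_⟩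
      rw [hcard, hd2, Nat.card_congr e.toEquiv]
    · rw [← h5]
      exact (P179Y.lam_comp red e (hirr.1 h2) hcf).symm
  · rintro ⟨h2, h3, h4, h5⟩
    refine ⟨hirr.2 h2, ?_, ?_, ?_⟩
    · intro r hr x
      exact h3 r ⟨r, hr, rfl⟩ x
    · obtain ⟨d, hd1, hd2⟩ := h4
      refine ⟨d, hd1, ?_⟩
      rw [← hcard, hd2, Nat.card_congr e.toEquiv]
    · rw [← h5]
      exact P179Y.lam_comp red e h2 hcf

theorem cnt_sub (H : Subgroup G) {z : G → k} (hz : IsCF z) (R' : Subgroup H) :
    cnt red p (fun h : H => z h) (normalizer (R' : Set H)) R' =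
      cnt red p z (normalizer ((R'.map H.subtype : Subgroup G) : Set G) ⊓ H)
        (R'.map H.subtype) := by
  unfold cnt
  have hext : ∀ (ψ : H → ℂ), (fun h : H => (fun x : G => if hx : x ∈ H then ψ ⟨x, hx⟩ else 0) h) =
      ψ := by
    intro ψ
    funext h
    simp
  refine Nat.card_congr
    { toFun := fun ψ => ⟨fun x => if hx : x ∈ H then ψ.1 ⟨x, hx⟩ else 0, ?_⟩
      invFun := fun χ => ⟨fun h => χ.1 h, ?_⟩
      left_inv := fun ψ => Subtype.ext (hext ψ.1)
      right_inv := fun χ => ?_ }
  · rw [← isW_sub red H hz R' _ (fun x hx => dif_neg hx), hext]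
    exact ψ.2
  · rw [isW_sub red H hz R' _ (fun x hx => χ.2.1 x fun h => hx h.2)]
    exact χ.2
  · apply Subtype.ext
    funext x
    by_cases hx : x ∈ H
    · simp [hx]
    · simp only [hx, dite_false]
      exact (χ.2.1 x fun h => hx h.2).symm

/-- **Counting the weights of the subgroup `H` in the truncation of `z`, inside `G`.** -/
theorem card_mul_numW_sub [Fact p.Prime] [Fintype (Subgroup G)] (H : Subgroup G)
    {z : MonoidAlgebra k G} (hz : z ∈ Subalgebra.center k (MonoidAlgebra k G)) :
    (Nat.card H : ℤ) * numW p red (trunc H z) =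
      ∑ R ∈ (Finset.univ : Finset (Subgroup G)).filter (fun R : Subgroup G => IsPGroup p R ∧ R ≤ H),
        (Nat.card (normalizer (R : Set G) ⊓ H : Subgroup G) : ℤ) *
          cnt red p (fun g => z.coeff g) (normalizer (R : Set G) ⊓ H) R := by
  have := Fintype.ofFinite G
  have hcf := (P179C.mem_center_iff _).1 hz
  have := Fintype.ofFinite (Subgroup H)
  rw [card_mul_numW red (trunc_mem H hz)]
  have hco : (fun g : H => (trunc H z).coeff g) = fun g : H => z.coeff g := by
    funext g
    exact coeff_trunc H z g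
  refine Finset.sum_bij (fun Q' _ => Q'.map H.subtype) ?_ ?_ ?_ ?_
  · intro Q' hQ'
    rw [Finset.mem_filter] at hQ' ⊢
    exact ⟨Finset.mem_univ _, hQ'.2.map _, map_subtype_le _⟩
  · intro Q' _ Q'' _ h2
    exact map_injective H.subtype_injective h2
  · intro Q hQ
    rw [Finset.mem_filter] at hQ
    refine ⟨Q.subgroupOf H, ?_, ?_⟩
    · rw [Finset.mem_filter]
      exact ⟨Finset.mem_univ _, hQ.2.1.of_equiv (subgroupOfEquivOfLe hQ.2.2).symm⟩
    · simp only [subgroupOf_map_subtype]
      exact inf_eq_left.mpr hQ.2.2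
  · intro Q' _
    rw [hco, cnt_sub red H hcf, Nat.card_congr (normalizerEquivInf H Q').toEquiv]

end Sub

end P179H725
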