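import Vale.Agent.P179.R2.H725.OntoL
import Vale.Agent.P179.R2.H364.MDefs
import Vale.Agent.P179.R2.H351.Supp

/-!
# The Brauer map is onto on the twisted centres
-/

namespace P179H725

open Subgroup Finset P179H524 P179C P179A P179P P179Y P179H12 P179H364

open scoped Classical

universe u

section Trace

variable {k : Type u} [Field k] {G : Type} [Group G] [Fintype G]

/-- the sum of the conjugates of `f` over the cosets of `H` in `C` -/
noncomputable def trC (C H : Subgroup G) (f : G → k) : G → k :=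
  ∑ q ∈ univ.filter (fun q : G ⧸ H => q.out ∈ C), cj q.out f

theorem trC_apply (C H : Subgroup G) (f : G → k) (g : G) :
    trC C H f g = ∑ q ∈ univ.filter (fun q : G ⧸ H => q.out ∈ C), f (q.out⁻¹ * g * q.out) := by
  unfold trC
  rw [Finset.sum_apply]
  rfl

omit [Fintype G] in
theorem out_mem {C H : Subgroup G} (hHC : H ≤ C) (c : G) : (c : G ⧸ H).out ∈ C ↔ c ∈ C := by
  have h1 : ((c : G ⧸ H).out : G ⧸ H) = c := Quotient.out_eq' _
  rw [QuotientGroup.eq] at h1
  constructor
  · intro h
    have := mul_mem h (hHC h1)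
    rwa [mul_inv_cancel_left] at this
  · intro h
    have := mul_mem h (inv_mem (hHC h1))
    have e : c * ((c : G ⧸ H).out⁻¹ * c)⁻¹ = (c : G ⧸ H).out := by group
    rwa [e] at this

omit [Fintype G] in
theorem f_out {H : Subgroup G} {f : G → k} (hf : ∀ h ∈ H, ∀ g, f (h * g * h⁻¹) = f g) (c g : G) :
    f ((c : G ⧸ H).out⁻¹ * g * (c : G ⧸ H).out) = f (c⁻¹ * g * c) := by
  have h1 : ((c : G ⧸ H).out : G ⧸ H) = c := Quotient.out_eq' _
  rw [QuotientGroup.eq] at h1
  rw [← hf _ (inv_mem h1)]
  congr 1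
  group

theorem trC_inv {C H : Subgroup G} (hHC : H ≤ C) {f : G → k}
    (hf : ∀ h ∈ H, ∀ g, f (h * g * h⁻¹) = f g) {c : G} (hc : c ∈ C) (g : G) :
    trC C H f (c * g * c⁻¹) = trC C H f g := by
  rw [trC_apply, trC_apply]
  refine Finset.sum_bij' (fun q _ => (c⁻¹ • q)) (fun q _ => c • q) ?_ ?_ ?_ ?_ ?_
  · intro q hq
    rw [mem_filter] at hq ⊢
    refine ⟨mem_univ _, ?_⟩
    have h1 : c⁻¹ • q = ((c⁻¹ * q.out : G) : G ⧸ H) := by
      conv_lhs => rw [← Quotient.out_eq' q]
      rfl
    rw [h1, out_mem hHC]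
    exact mul_mem (inv_mem hc) hq.2
  · intro q hq
    rw [mem_filter] at hq ⊢
    refine ⟨mem_univ _, ?_⟩
    have h1 : c • q = ((c * q.out : G) : G ⧸ H) := by
      conv_lhs => rw [← Quotient.out_eq' q]
      rfl
    rw [h1, out_mem hHC]
    exact mul_mem hc hq.2
  · intro q _
    exact smul_inv_smul c q
  · intro q _
    exact inv_smul_smul c q
  · intro q _
    have h1 : c⁻¹ • q = ((c⁻¹ * q.out : G) : G ⧸ H) := by
      conv_lhs => rw [← Quotient.out_eq' q]
      rfl
    rw [h1, f_out hf]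
    congr 1
    group

/-- only the fixed cosets count -/
theorem trC_fixed (p : ℕ) [hp : Fact p.Prime] [CharP k p] {C H Q : Subgroup G} (hHC : H ≤ C)
    (hHN : H ≤ normalizer (Q : Set G)) (hQp : IsPGroup p Q) (hQC : Q ≤ C) {f : G → k}
    (hf : ∀ h ∈ H, ∀ g, f (h * g * h⁻¹) = f g) {g : G} (hg : g ∈ centralizer (Q : Set G))
    (hS : ∀ c ∈ C, (∀ d ∈ Q, c⁻¹ * d * c ∈ H) → f (c⁻¹ * g * c) ≠ 0 →
      c ∈ normalizer (Q : Set G)) :
    trC C H f g = ∑ q ∈ univ.filter (fun q : G ⧸ H => q.out ∈ C ∧ q.out ∈ normalizer (Q : Set G)),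
      f (q.out⁻¹ * g * q.out) := by
  have := Fintype.ofFinite Q
  rw [trC_apply, Finset.sum_filter, Finset.sum_filter, ← sub_eq_zero, ← Finset.sum_sub_distrib]
  have hsm : ∀ (d : G) (q : G ⧸ H), d • q = ((d * q.out : G) : G ⧸ H) := by
    intro d q
    conv_lhs => rw [← Quotient.out_eq' q]
    rfl
  refine sum_eq_zero_of_perm p hQp ((MulAction.toPermHom G (G ⧸ H)).comp Q.subtype) _ ?_ ?_
  · intro d q
    change (if ((d : G) • q).out ∈ C then f (((d : G) • q).out⁻¹ * g * ((d : G) • q).out) else 0) -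
      (if ((d : G) • q).out ∈ C ∧ ((d : G) • q).out ∈ normalizer (Q : Set G) then
        f (((d : G) • q).out⁻¹ * g * ((d : G) • q).out) else 0) = _
    rw [hsm, out_mem hHC, out_mem hHN, f_out hf]
    have e1 : (d : G) * q.out ∈ C ↔ q.out ∈ C := mul_mem_cancel_left (hQC d.2)
    have e2 : (d : G) * q.out ∈ normalizer (Q : Set G) ↔ q.out ∈ normalizer (Q : Set G) :=
      mul_mem_cancel_left (le_normalizer d.2)
    have e3 : ((d : G) * q.out)⁻¹ * g * ((d : G) * q.out) = q.out⁻¹ * g * q.out := by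
      have h1 := mem_centralizer_iff.1 hg d d.2
      calc ((d : G) * q.out)⁻¹ * g * ((d : G) * q.out)
          = q.out⁻¹ * ((d : G)⁻¹ * (g * d)) * q.out := by group
        _ = q.out⁻¹ * g * q.out := by rw [← h1]; group
    rw [e1, e2, e3]
  · intro q hq
    have hfix : ∀ d ∈ Q, q.out⁻¹ * d * q.out ∈ H := by
      intro d hd
      have h1 := hq ⟨d, hd⟩
      change d • q = q at h1
      rw [hsm] at h1
      conv_rhs at h1 => rw [← Quotient.out_eq' q]
      have h2 : ((d * q.out : G) : G ⧸ H) = (q.out : G ⧸ H) := h1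
      rw [QuotientGroup.eq] at h2
      have h3 := inv_mem h2
      have e : ((d * q.out)⁻¹ * q.out)⁻¹ = q.out⁻¹ * d * q.out := by group
      rwa [e] at h3
    by_cases hC : q.out ∈ C
    · by_cases h0 : f (q.out⁻¹ * g * q.out) = 0
      · rw [h0]
        simp
      · rw [if_pos hC, if_pos ⟨hC, hS _ hC hfix h0⟩, sub_self]
    · rw [if_neg hC, if_neg fun h => hC h.1, sub_self]

end Trace

section Norm

variable {G : Type} [Group G]

theorem map_of_mem_norm {P : Subgroup G} {c : G} (hc : c ∈ normalizer (P : Set G)) :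
    P.map (MulAut.conj c).toMonoidHom = P := by
  ext x
  constructor
  · rintro ⟨y, hy, rfl⟩
    exact (mem_normalizer_iff.1 hc y).1 hy
  · intro hx
    refine ⟨c⁻¹ * x * c, ?_, ?_⟩
    · have := (mem_normalizer_iff.1 (inv_mem hc) x).1 hx
      rwa [inv_inv] at this
    · change c * (c⁻¹ * x * c) * c⁻¹ = x
      group

theorem mem_norm_of_map {P : Subgroup G} {c : G} (hc : P.map (MulAut.conj c).toMonoidHom = P) :
    c ∈ normalizer (P : Set G) := by
  rw [mem_normalizer_iff]
  intro x
  constructor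
  · intro hx
    rw [← hc]
    exact ⟨x, hx, rfl⟩
  · intro hx
    rw [← hc] at hx
    obtain ⟨y, hy, hyx⟩ := hx
    have h1 : c * y * c⁻¹ = c * x * c⁻¹ := hyx
    have h2 : y = x := mul_left_cancel (mul_right_cancel h1)
    exact h2 ▸ hy

end Norm

section Onto

variable (p : ℕ) [hp : Fact p.Prime] {k : Type u} [Field k] [IsAlgClosed k] [CharP k p]
  {G : Type} [Group G] [Fintype G] {D P : Subgroup G} {l : (G → k) → k}

theorem conv_sum' {ι : Type*} (s : Finset ι) (a : G → k) (b : ι → G → k) :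
    conv a (∑ i ∈ s, b i) = ∑ i ∈ s, conv a (b i) := by
  induction s using Finset.induction_on with
  | empty => rw [Finset.sum_empty, Finset.sum_empty, conv_zero']
  | insert i s hi ih => rw [Finset.sum_insert hi, Finset.sum_insert hi, conv_add', ih]

theorem onto (hl : BP p D l) (hD : IsPGroup p D) (hab : D ≤ centralizer (D : Set G))
    (hT : ¬ p ∣ (centralizer (D : Set G)).relIndex (stabT D l)) (hPD : P ≤ D)
    (hnil : ∀ n ∈ stabT D l, n ∈ centralizer (P : Set G) → n ∈ centralizer (D : Set G))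
    {z : G} (hz : z ∈ stabT D l) (hzP : z ∈ normalizer (P : Set G)) {Q : Subgroup G}
    (hQ : Q = P ⊔ (D ⊓ centralizer {z}))
    {b : MonoidAlgebra k (centralizer (P : Set G))} (hb : IsBlock b)
    (hlb : Low (centralizer (P : Set G)) l b)
    {b' : MonoidAlgebra k (centralizer (Q : Set G))} (hb' : IsBlock b')
    (hlb' : Low (centralizer (Q : Set G)) l b')
    {f : G → k} (hf : f ∈ Mz (centralizer (Q : Set G)) z (bF (centralizer (Q : Set G)) b')) :
    ∃ F ∈ Mz (centralizer (P : Set G)) z (bF (centralizer (P : Set G)) b),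
      conv (bF (centralizer (Q : Set G)) b') (cutz (centralizer (Q : Set G)) z F) = f := by
  obtain ⟨hfs, hfi, hfe⟩ := hf
  set R : Subgroup G := D ⊓ centralizer {z} with hR
  have hPQ : P ≤ Q := hQ ▸ le_sup_left
  have hRQ : R ≤ Q := hQ ▸ le_sup_right
  have hRD : R ≤ D := inf_le_left
  have hQD : Q ≤ D := hQ ▸ sup_le hPD hRD
  have hHC : (centralizer (Q : Set G)) ≤ (centralizer (P : Set G)) := centralizer_le (SetLike.coe_subset_coe.2 hPQ)
  have hCD : centralizer (D : Set G) ≤ (centralizer (Q : Set G)) := centralizer_le (SetLike.coe_subset_coe.2 hQD)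
  have hDH : D ≤ (centralizer (Q : Set G)) := hab.trans hCD
  have hHR : (centralizer (Q : Set G)) ≤ centralizer (R : Set G) := centralizer_le (SetLike.coe_subset_coe.2 hRQ)
  have hRp : IsPGroup p R := hD.to_le hRD
  have hRC : R ≤ (centralizer (P : Set G)) := (hRD.trans hDH).trans hHC
  -- the centraliser of Q
  have hmemH : ∀ x : G, x ∈ (centralizer (Q : Set G)) ↔ x ∈ (centralizer (P : Set G)) ∧ x ∈ centralizer (R : Set G) := by
    intro x
    refine ⟨fun h => ⟨hHC h, hHR h⟩, fun h => ?_⟩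
    have h1 : Q ≤ centralizer ({x} : Set G) := by
      rw [hQ]
      refine sup_le (fun y hy => ?_) fun y hy => ?_
      · rw [mem_centralizer_singleton_iff]
        exact mem_centralizer_iff.1 h.1 y hy
      · rw [mem_centralizer_singleton_iff]
        exact mem_centralizer_iff.1 h.2 y hy
    rw [mem_centralizer_iff]
    intro y hy
    exact mem_centralizer_singleton_iff.1 (h1 hy)
  -- `z` centralises `R` and normalises `Q`
  have hzR : z ∈ centralizer (R : Set G) := by
    rw [mem_centralizer_iff]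
    intro y hy
    exact (mem_centralizer_singleton_iff.1 (Subgroup.mem_inf.1 hy).2)
  have hnorm : ∀ c : G, c ∈ normalizer (P : Set G) → c ∈ normalizer (R : Set G) →
      c ∈ normalizer (Q : Set G) := by
    intro c hcP hcR
    refine mem_norm_of_map ?_
    rw [hQ, Subgroup.map_sup, map_of_mem_norm hcP, map_of_mem_norm hcR]
  have hzQ : z ∈ normalizer (Q : Set G) := hnorm z hzP (centralizer_le_normalizer _ hzR)
  have hnilQ : ∀ n ∈ stabT D l, n ∈ (centralizer (Q : Set G)) → n ∈ centralizer (D : Set G) :=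
    fun n hn hnH => hnil n hn (hHC hnH)
  -- the supports
  have hsupp : ∀ g, f g ≠ 0 → ∀ U : Subgroup G, U ≤ (centralizer (Q : Set G)) → IsPGroup p U →
      (∀ u ∈ U, u * g = g * u) → U ≤ R := by
    intro g hg U hUH hUp hUg u hu
    obtain ⟨n, hn⟩ := hUp ⟨u, hu⟩
    obtain ⟨h, hh, h1, h2⟩ := P179H351.supp_conj hl hD hab hQD hnilQ hz hzQ
      (invOn_bF hb'.1) (by rw [mkF_bF]; exact hb') (hlb'.one hb') hfs hfi hfe (hUH hu)
      ⟨n, congrArg Subtype.val hn⟩ hg (hUg u hu)
    have h3 : h⁻¹ * u * h ∈ R := by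
      refine Subgroup.mem_inf.2 ⟨h1, ?_⟩
      rw [mem_centralizer_singleton_iff]
      calc h⁻¹ * u * h * z = z * (h⁻¹ * u * h) * z⁻¹ * z := by rw [h2]
        _ = z * (h⁻¹ * u * h) := by group
    have h4 := mem_centralizer_iff.1 (hHR hh) _ h3
    have h5 : u = h⁻¹ * u * h := by
      calc u = h * (h⁻¹ * u * h) * h⁻¹ := by group
        _ = h⁻¹ * u * h := by rw [← h4]; group
    rw [h5]
    exact h3
  set e := bF (centralizer (P : Set G)) b with hedef
  set e' := bF (centralizer (Q : Set G)) b' with he'def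
  have hei : InvOn (centralizer (P : Set G)) e := invOn_bF hb.1
  have hee : conv e e = e := conv_bF_self hb
  have hTi : ∀ c ∈ (centralizer (P : Set G)), ∀ g, trC (centralizer (P : Set G)) (centralizer (Q : Set G)) f (c * g * c⁻¹) = trC (centralizer (P : Set G)) (centralizer (Q : Set G)) f g :=
    fun c hc g => trC_inv hHC hfi hc g
  have hTs : ∀ g, trC (centralizer (P : Set G)) (centralizer (Q : Set G)) f g ≠ 0 → g * z⁻¹ ∈ (centralizer (P : Set G)) := by
    intro g hg
    rw [trC_apply] at hg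
    obtain ⟨q, hq, hq0⟩ := Finset.exists_ne_zero_of_sum_ne_zero hg
    rw [mem_filter] at hq
    have h1 := hHC (hfs _ hq0)
    have h2 : z * q.out⁻¹ * z⁻¹ ∈ (centralizer (P : Set G)) := (conj_mem_cent hzP _).2 (inv_mem hq.2)
    have h3 := mul_mem (mul_mem hq.2 h1) h2
    have e1 : q.out * (q.out⁻¹ * g * q.out * z⁻¹) * (z * q.out⁻¹ * z⁻¹) = g * z⁻¹ := by group
    rwa [e1] at h3
  set T := trC (centralizer (P : Set G)) (centralizer (Q : Set G)) f with hTdef
  have hFs : ∀ g, conv e T g ≠ 0 → g * z⁻¹ ∈ (centralizer (P : Set G)) := by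
    intro g hg
    unfold conv at hg
    obtain ⟨h, -, hh⟩ := Finset.exists_ne_zero_of_sum_ne_zero hg
    have h1 : h ∈ (centralizer (P : Set G)) := by
      by_contra hcon
      exact hh (by rw [hei.2 h hcon, zero_mul])
    have h2 := hTs _ (right_ne_zero_of_mul hh)
    have h3 := mul_mem h1 h2
    have e1 : h * (h⁻¹ * g * z⁻¹) = g * z⁻¹ := by group
    rwa [e1] at h3
  refine ⟨conv e T, ⟨hFs, ?_, ?_⟩, ?_⟩
  · intro c hc g
    have h1 : cj c⁻¹ (conv e T) = conv e T := by
      rw [cj_conv, cj_eq_of_inv (hei.1 c⁻¹ (inv_mem hc)), cj_eq_of_inv (hTi c⁻¹ (inv_mem hc))]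
    have h2 := congrFun h1 g
    unfold cj at h2
    rw [inv_inv] at h2
    exact h2
  · rw [← P179I.conv_assoc', hee]
  -- the coset of `(centralizer (Q : Set G))`
  have hcutz : cutz (centralizer (Q : Set G)) z (conv e T) = conv (cutC R e) (cutC R T) := by
    funext x
    by_cases hx : x ∈ centralizer (R : Set G)
    · rw [← conv_cut p R hRp (fun d hd y => hei.1 d (hRC hd) y) (fun d hd y => hTi d (hRC hd) y)
        hx]
      by_cases h1 : x * z⁻¹ ∈ (centralizer (Q : Set G))
      · rw [cutz_of h1]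
      · rw [cutz_of_not h1]
        by_contra hcon
        apply h1
        rw [hmemH]
        exact ⟨hFs x (Ne.symm hcon), mul_mem hx (inv_mem hzR)⟩
    · rw [cutz_of_not]
      · symm
        unfold conv
        refine Finset.sum_eq_zero fun h _ => ?_
        by_cases hh : h ∈ centralizer (R : Set G)
        · have h1 : h⁻¹ * x ∉ centralizer (R : Set G) := fun h1 => hx (by
            have := mul_mem hh h1
            rwa [mul_inv_cancel_left] at this)
          rw [cutC, cutC, if_neg h1, mul_zero]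
        · rw [cutC, if_neg hh, zero_mul]
      · intro h1
        apply hx
        have := mul_mem (hHR h1) hzR
        rwa [inv_mul_cancel_right] at this
  have hcutR : cutC R e = cutC Q e := by
    funext x
    unfold cutC
    by_cases hx : x ∈ (centralizer (P : Set G))
    · have h1 : x ∈ centralizer (R : Set G) ↔ x ∈ centralizer (Q : Set G) :=
        ⟨fun h => (hmemH x).2 ⟨hx, h⟩, fun h => ((hmemH x).1 h).2⟩
      simp only [h1]
    · rw [hei.2 x hx, ite_self, ite_self]
  have hcutT : cutC R T = ∑ q ∈ univ.filter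
      (fun q : G ⧸ (centralizer (Q : Set G)) => q.out ∈ (centralizer (P : Set G)) ∧ q.out ∈ normalizer (R : Set G)), cj q.out f := by
    funext g
    rw [Finset.sum_apply]
    by_cases hg : g ∈ centralizer (R : Set G)
    · rw [cutC, if_pos hg, hTdef, trC_fixed p hHC (hHR.trans (centralizer_le_normalizer _)) hRp hRC
        hfi hg]
      · rfl
      · intro c _ hcH hc0
        have h1 : R.map (MulAut.conj c⁻¹).toMonoidHom ≤ R := by
          refine hsupp _ hc0 _ ?_ (hRp.map _) ?_
          · rintro _ ⟨d, hd, rfl⟩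
            change c⁻¹ * d * (c⁻¹)⁻¹ ∈ (centralizer (Q : Set G))
            rw [inv_inv]
            exact hcH d hd
          · rintro _ ⟨d, hd, rfl⟩
            change c⁻¹ * d * (c⁻¹)⁻¹ * (c⁻¹ * g * c) = c⁻¹ * g * c * (c⁻¹ * d * (c⁻¹)⁻¹)
            have h2 := mem_centralizer_iff.1 hg d hd
            calc c⁻¹ * d * (c⁻¹)⁻¹ * (c⁻¹ * g * c) = c⁻¹ * (d * g) * c := by group
              _ = c⁻¹ * g * c * (c⁻¹ * d * (c⁻¹)⁻¹) := by rw [h2]; group
        have h2 : R.map (MulAut.conj c⁻¹).toMonoidHom = R :=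
          Subgroup.eq_of_le_of_card_ge h1
            (Nat.card_congr (R.equivMapOfInjective _ (MulAut.conj c⁻¹).injective).toEquiv).le
        have h3 := mem_norm_of_map h2
        exact inv_mem_iff.1 h3
    · rw [cutC, if_neg hg]
      symm
      refine Finset.sum_eq_zero fun q hq => ?_
      rw [mem_filter] at hq
      by_contra hcon
      apply hg
      have h1 := hHR (hfs _ hcon)
      have h2 := mul_mem h1 hzR
      rw [inv_mul_cancel_right] at h2
      have h3 := (conj_mem_cent hq.2.2 _).2 h2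
      have e1 : q.out * (q.out⁻¹ * g * q.out) * q.out⁻¹ = g := by group
      rwa [e1] at h3
  have hone : ((1 : G) : G ⧸ (centralizer (Q : Set G))).out ∈ (centralizer (Q : Set G)) := (out_mem le_rfl (1 : G)).2 (one_mem _)
  rw [hcutz, ← P179I.conv_assoc', hcutR, low_mul hl hD hab hPQ hQD hb hlb hb' hlb', hcutT, conv_sum',
    Finset.sum_eq_single ((1 : G) : G ⧸ (centralizer (Q : Set G)))]
  · rw [cj_eq_of_inv (hfi _ hone), hfe]
  · intro q hq hq1
    rw [mem_filter] at hq
    have hqH : q.out ∉ (centralizer (Q : Set G)) := by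
      intro h
      apply hq1
      rw [← Quotient.out_eq' q]
      exact (QuotientGroup.eq.2 (by rw [mul_one]; exact inv_mem h) :
        (q.out : G ⧸ (centralizer (Q : Set G))) = ((1 : G) : G ⧸ (centralizer (Q : Set G))))
    have hqP : q.out ∈ normalizer (P : Set G) := centralizer_le_normalizer _ hq.2.1
    have hqQ := hnorm _ hqP hq.2.2
    have hqn : q.out ∈ normalizer ((centralizer (Q : Set G)) : Set G) := by
      rw [mem_normalizer_iff]
      intro x
      exact (conj_mem_cent hqQ x).symm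
    have h1 : conv e' (cj q.out e') = 0 :=
      conv_cj_eq_zero (BP.mulH hl hD hab hCD) hb' hlb' hqn fun h =>
        hqH (mem_of_stH hl hD hab hT hPQ hQD hnil hq.2.1 h)
    rw [← hfe, cj_conv, ← P179I.conv_assoc', h1]
    funext x
    unfold conv
    simp
  · intro h
    exfalso
    apply h
    rw [mem_filter]
    exact ⟨mem_univ _, hHC hone, centralizer_le_normalizer _ (hHR hone)⟩

end Onto

end P179H725
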