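import Vale.Agent.P179.R2.H725.Onto
import Vale.Agent.P179.R2.H364.StepF

/-!
# The Brauer map is onto on the twisted centres: final form
-/

namespace P179H725

universe u

/-- **the Brauer map is onto** -/
theorem ontoStmt (p : ℕ) [hp : Fact p.Prime] (k : Type u) [Field k] [IsAlgClosed k] [CharP k p] :
    P179H364.OntoStmt p k := by
  intro G _ _ D P l hl hD hab hT hPD hnil z hz b hb hlb b' hb' hlb' f hf
  exact onto p hl hD hab hT hPD hnil (Subgroup.mem_inf.1 hz).1 (Subgroup.mem_inf.1 hz).2 rfl
    hb hlb hb' hlb' hf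

end P179H725
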