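import Vale.Agent.P179.R2.H12.Tst

/-!
# Two lemmas on the blocks of `C_G(P)` and `C_G(Q)`, `P ≤ Q ≤ D`
-/

namespace P179H725

open Subgroup Finset P179H524 P179C P179A P179P P179Y P179H12

open scoped Classical

universe u

variable {p : ℕ} [hp : Fact p.Prime] {k : Type u} [Field k] [IsAlgClosed k] [CharP k p]
  {G : Type} [Group G] [Fintype G] {D P Q : Subgroup G} {l : (G → k) → k}

/-- the idempotent of `C_G(P)`, cut to `C_G(Q)`, contains the block of `C_G(Q)` below `l` -/
theorem low_mul (hl : BP p D l) (hD : IsPGroup p D) (hab : D ≤ centralizer (D : Set G))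
    (hPQ : P ≤ Q) (hQD : Q ≤ D) {b : MonoidAlgebra k (centralizer (P : Set G))} (hb : IsBlock b)
    (hlb : Low (centralizer (P : Set G)) l b) {b2 : MonoidAlgebra k (centralizer (Q : Set G))}
    (hb2 : IsBlock b2) (hlb2 : Low (centralizer (Q : Set G)) l b2) :
    conv (bF (centralizer (Q : Set G)) b2) (cutC Q (bF (centralizer (P : Set G)) b)) =
      bF (centralizer (Q : Set G)) b2 := by
  have hQp : IsPGroup p Q := hD.to_le hQD
  have hCQP : centralizer (Q : Set G) ≤ centralizer (P : Set G) :=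
    centralizer_le (SetLike.coe_subset_coe.2 hPQ)
  have hCDQ : centralizer (D : Set G) ≤ centralizer (Q : Set G) :=
    centralizer_le (SetLike.coe_subset_coe.2 hQD)
  have hQC : Q ≤ centralizer (Q : Set G) := hQD.trans (hab.trans hCDQ)
  set e := bF (centralizer (P : Set G)) b with he
  have hinv : InvOn (centralizer (P : Set G)) e := invOn_bF hb.1
  have hE : InvOn (centralizer (Q : Set G)) (cutC Q e) :=
    invOn_cutC Q fun c hc => hinv.1 c (hCQP hc)
  have hEE : conv (cutC Q e) (cutC Q e) = cutC Q e := by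
    funext x
    by_cases hx : x ∈ centralizer (Q : Set G)
    · rw [← conv_cut p Q hQp (fun d hd y => hinv.1 d (hCQP (hQC hd)) y)
        (fun d hd y => hinv.1 d (hCQP (hQC hd)) y) hx, he, conv_bF_self hb, cutC, if_pos hx]
    · rw [hE.2 x hx]
      unfold conv
      refine Finset.sum_eq_zero fun h _ => ?_
      by_cases hh : h ∈ centralizer (Q : Set G)
      · rw [hE.2 (h⁻¹ * x) fun h1 => hx ?_, mul_zero]
        have := mul_mem hh h1
        rwa [mul_inv_cancel_left] at this
      · rw [hE.2 h hh, zero_mul]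
  have hlE : l (cutC Q e) = 1 := by
    rw [← hlb.one hb]
    refine hl.congr fun x hx => ?_
    rw [cutC, if_pos (hCDQ hx)]
  have hmul : l (conv (bF (centralizer (Q : Set G)) b2) (cutC Q e)) = 1 := by
    rw [(BP.mulH hl hD hab hCDQ).mul _ _ (invOn_bF hb2.1) hE, hlE, hlb2.one hb2, mul_one]
  -- the primitive idempotent
  set E : MonoidAlgebra k (centralizer (Q : Set G)) :=
    mkF (fun h : centralizer (Q : Set G) => cutC Q e h) with hEdef
  have hEc : E ∈ Subalgebra.center k (MonoidAlgebra k (centralizer (Q : Set G))) :=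
    mkF_mem (isCF_of_invOn hE)
  have hbE : bF (centralizer (Q : Set G)) E = cutC Q e := bF_mkF _ hE.2
  have hEi : E * E = E := bF_inj (by rw [bF_mul, hbE, hEE])
  have hcomm : b2 * E = E * b2 := (Subalgebra.mem_center_iff.1 hb2.1 E).symm
  have hid : b2 * E * (b2 * E) = b2 * E := by
    rw [mul_assoc, ← mul_assoc E b2 E, ← hcomm, mul_assoc b2 E E, hEi, ← mul_assoc, hb2.2.1]
  rcases hb2.2.2.2 _ (mul_mem hb2.1 hEc) hid
    (by rw [mul_assoc, ← hcomm, ← mul_assoc, hb2.2.1]) with h | h
  · exfalso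
    rw [← hbE, ← bF_mul, h, bF_zero, (BP.mulH hl hD hab hCDQ).zero] at hmul
    exact zero_ne_one hmul
  · rw [← hbE, ← bF_mul, h]

/-- the elements of `C_G(P)` stabilising the block of `C_G(Q)` lie in `C_G(Q)` -/
theorem mem_of_stH (hl : BP p D l) (hD : IsPGroup p D) (hab : D ≤ centralizer (D : Set G))
    (hT : ¬ p ∣ (centralizer (D : Set G)).relIndex (stabT D l)) (hPQ : P ≤ Q) (hQD : Q ≤ D)
    (hnil : ∀ n ∈ stabT D l, n ∈ centralizer (P : Set G) → n ∈ centralizer (D : Set G))
    {c : G} (hc : c ∈ centralizer (P : Set G)) (hcs : c ∈ stH (centralizer (Q : Set G)) l) :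
    c ∈ centralizer (Q : Set G) := by
  have hCQP : centralizer (Q : Set G) ≤ centralizer (P : Set G) :=
    centralizer_le (SetLike.coe_subset_coe.2 hPQ)
  have hCDQ : centralizer (D : Set G) ≤ centralizer (Q : Set G) :=
    centralizer_le (SetLike.coe_subset_coe.2 hQD)
  obtain ⟨h, hh, hn⟩ := exists_stab hl hD hab hT (hab.trans hCDQ) hCDQ hcs
  have h1 := hCDQ (hnil _ hn (mul_mem (inv_mem (hCQP hh)) hc))
  have h2 := mul_mem hh h1
  rwa [mul_inv_cancel_left] at h2

end P179H725
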