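import Vale.Agent.P179.R2.H364.Wa1

/-!
# The last step of the core lemma: a derivation which commutes with the conjugation by `D`
-/

namespace P179H725

open Subgroup Finset P179H364W

open scoped Classical

variable {p : ℕ} {k : Type*} [Field k] [CharP k p] {G : Type*} [Group G] [Fintype G]

/-- an invariant function on a finite set acted on by a `p`-group has sum zero in characteristic
`p` if it vanishes on the fixed points -/
theorem sum_invariant_eq_zero {R : Type*} [CommRing R] [CharP R p] [Fact p.Prime]
    {P X : Type*} [Group P] [MulAction P X] [Fintype X]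
    [Finite P] (hP : IsPGroup p P) (φ : X → R) (hφ : ∀ (g : P) (x : X), φ (g • x) = φ x)
    (h0 : ∀ x ∈ MulAction.fixedPoints P X, φ x = 0) : ∑ x, φ x = 0 := by
  have := Fintype.ofFinite (MulAction.orbitRel.Quotient P X)
  rw [← Finset.sum_fiberwise (s := Finset.univ)
    (g := fun x : X => (Quotient.mk'' x : MulAction.orbitRel.Quotient P X))]
  apply Finset.sum_eq_zero
  intro q _
  induction q using Quotient.inductionOn' with
  | h x =>
  rw [Finset.sum_congr rfl (g := fun _ => φ x)]
  · rw [Finset.sum_const, nsmul_eq_mul]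
    by_cases hx : x ∈ MulAction.fixedPoints P X
    · rw [h0 x hx, mul_zero]
    · have h1 : (Finset.univ.filter fun y : X => (Quotient.mk'' y :
          MulAction.orbitRel.Quotient P X) = Quotient.mk'' x).card =
          Nat.card (MulAction.orbit P x) := by
        rw [Nat.card_eq_fintype_card, ← Fintype.card_subtype]
        apply Fintype.card_congr
        refine Equiv.subtypeEquivRight fun y => ?_
        rw [Quotient.eq'', MulAction.orbitRel_apply]
      rw [h1]
      obtain ⟨n, hn⟩ := hP.card_orbit x
      rw [hn]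
      have h3 : n ≠ 0 := by
        rintro rfl
        rw [pow_zero] at hn
        apply hx
        rw [MulAction.mem_fixedPoints_iff_card_orbit_eq_one, ← Nat.card_eq_fintype_card]
        exact hn
      rw [Nat.cast_pow, CharP.cast_eq_zero, zero_pow h3, zero_mul]
  · intro y hy
    have h1 := (Finset.mem_filter.1 hy).2
    obtain ⟨g, hg⟩ := Quotient.exact' h1
    rw [← hg]
    exact hφ g x

/-- a linear map commuting with the conjugation by the `p`-group `D` maps `D`-invariant elements
which vanish on `C(D)` to elements which vanish on `C(D)` -/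
theorem lin_orbit [Fact p.Prime] {D : Subgroup G} (hD : IsPGroup p D)
    (L : MonoidAlgebra k G →ₗ[k] MonoidAlgebra k G)
    (hL : ∀ u ∈ D, ∀ y, L (cn u y) = cn u (L y))
    {r : MonoidAlgebra k G} (hr : ∀ u ∈ D, cn u r = r)
    (hr0 : ∀ y ∈ centralizer (D : Set G), r.coeff y = 0)
    {g : G} (hg : g ∈ centralizer (D : Set G)) : (L r).coeff g = 0 := by
  have h1 : (L r).coeff g = ∑ y : G, r.coeff y * (L (sg y)).coeff g := by
    conv_lhs => rw [eq_sum r, map_sum]
    rw [MonoidAlgebra.coeff_sum]
    simp
  rw [h1]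
  let act : MulAction D G :=
    { smul := fun u y => (u : G) * y * (u : G)⁻¹
      one_smul := fun y => by
        change ((1 : D) : G) * y * ((1 : D) : G)⁻¹ = y
        simp
      mul_smul := fun u v y => by
        change ((u * v : D) : G) * y * ((u * v : D) : G)⁻¹ = (u : G) * ((v : G) * y * (v : G)⁻¹) * (u : G)⁻¹
        simp [mul_assoc] }
  refine sum_invariant_eq_zero (p := p) (P := D) (X := G) hD _ ?_ ?_
  · intro u y
    change r.coeff ((u : G) * y * (u : G)⁻¹) * (L (sg ((u : G) * y * (u : G)⁻¹))).coeff g = _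
    rw [cn_eq_iff.1 (hr u u.2) y, ← cn_sg, hL u u.2, coeff_cn]
    congr 2
    have := hg u u.2
    rw [mul_assoc, ← this, inv_mul_cancel_left]
  · intro y hy
    have h2 : y ∈ centralizer (D : Set G) := by
      intro u hu
      have h3 : u * y * u⁻¹ = y := hy ⟨u, hu⟩
      calc u * y = u * y * u⁻¹ * u := by group
        _ = y * u := by rw [h3]
    rw [hr0 y h2, zero_mul]

section Abs

variable {k : Type*} [Field k] {A : Type*} [Ring A] [Algebra k A]

/-- the derivation `y ↦ i d(i y i) i - [m, i y i]` -/
def Ed (d : A →ₗ[k] A) (i m : A) : A →ₗ[k] A where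
  toFun y := i * d (i * y * i) * i - (m * (i * y * i) - (i * y * i) * m)
  map_add' y y' := by
    simp only [mul_add, add_mul, map_add]
    abel
  map_smul' c y := by
    simp only [mul_smul_comm, smul_mul_assoc, map_smul, RingHom.id_apply, smul_sub]

variable {d : A →ₗ[k] A} {i m a : A}

theorem Ed_of {y : A} (hy : i * y * i = y) : Ed d i m y = i * d y * i - (m * y - y * m) := by
  change i * d (i * y * i) * i - (m * (i * y * i) - (i * y * i) * m) = _
  rw [hy]

theorem Ed_cut (hii : i * i = i) (y : A) : Ed d i m (i * y * i) = Ed d i m y := by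
  have h3 : i * (i * y * i) * i = i * y * i := by
    rw [← mul_assoc, ← mul_assoc, hii, mul_assoc, hii]
  rw [Ed_of h3]
  rfl

theorem cut_l (hii : i * i = i) {y : A} (hy : i * y * i = y) : i * y = y := by
  rw [← hy, ← mul_assoc, ← mul_assoc, hii]

theorem cut_r (hii : i * i = i) {y : A} (hy : i * y * i = y) : y * i = y := by
  rw [← hy, mul_assoc, hii]

theorem Ed_mul (hd : ∀ x y, d (x * y) = d x * y + x * d y) (hii : i * i = i) {y y' : A}
    (hy : i * y * i = y) (hy' : i * y' * i = y') :
    Ed d i m (y * y') = Ed d i m y * y' + y * Ed d i m y' := by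
  have h3 := cut_l hii hy
  have h4 := cut_r hii hy'
  have h5 := cut_r hii hy
  have h6 := cut_l hii hy'
  have h7 : i * (y * y') * i = y * y' := by
    rw [← mul_assoc, h3, mul_assoc, h4]
  rw [Ed_of h7, Ed_of hy, Ed_of hy', hd]
  have h8 : i * (d y * y' + y * d y') * i = i * d y * i * y' + y * (i * d y' * i) := by
    calc i * (d y * y' + y * d y') * i = i * d y * (y' * i) + (i * y) * d y' * i := by
          rw [mul_add, add_mul]; simp only [mul_assoc]
      _ = i * d y * (i * y') + (y * i) * d y' * i := by rw [h3, h4, h5, h6]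
      _ = _ := by simp only [mul_assoc]
  rw [h8]
  simp only [sub_mul, mul_sub, mul_assoc]
  abel

/-- `i d(i) i = 0` -/
theorem idi (hd : ∀ x y, d (x * y) = d x * y + x * d y) (hii : i * i = i) : i * d i * i = 0 := by
  have h3 : d i = d i * i + i * d i := by rw [← hd, hii]
  have h4 : i * d i * i = i * d i * i + i * d i * i := by
    conv_lhs => rw [h3]
    rw [mul_add, add_mul]
    simp only [← mul_assoc, hii]
    rw [mul_assoc (i * d i) i i, hii]
  exact left_eq_add.1 h4

theorem iui (hii : i * i = i) {s : A} (hs : s * i = i * s) : i * (s * i) * i = s * i := by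
  rw [← mul_assoc, ← hs, mul_assoc, hii, mul_assoc, hii]

theorem Ed_unit (hd : ∀ x y, d (x * y) = d x * y + x * d y) (hii : i * i = i)
    (ha : ∀ y, y * a = a * y) {s xi : A} (hs : s * i = i * s) {c : k}
    (h2 : i * d s = c • (i * a * s) + (xi * s - s * xi)) :
    Ed d i (i * xi * i) (s * i) = c • (a * (s * i)) := by
  rw [Ed_of (iui hii hs), hd]
  have h4 : i * (d s * i + s * d i) * i = i * d s * i := by
    calc i * (d s * i + s * d i) * i = i * d s * (i * i) + (i * s) * d i * i := by
          rw [mul_add, add_mul]; simp only [mul_assoc]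
      _ = i * d s * i + s * (i * d i * i) := by
          rw [hii, ← hs]; simp only [mul_assoc]
      _ = _ := by rw [idi hd hii, mul_zero, add_zero]
  have h5 : i * d s * i = i * (i * d s) * i := by
    rw [← mul_assoc, hii]
  rw [h4, h5, h2]
  have h6 : i * (c • (i * a * s) + (xi * s - s * xi)) * i =
      c • (a * (s * i)) + (i * xi * i * (s * i) - s * i * (i * xi * i)) := by
    rw [mul_add, add_mul, mul_sub, sub_mul, mul_smul_comm, smul_mul_assoc]
    congr 2
    · calc i * (i * a * s) * i = (i * i) * a * s * i := by simp only [mul_assoc]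
        _ = a * (i * s) * i := by rw [hii, ha]; simp only [mul_assoc]
        _ = a * (s * (i * i)) := by rw [← hs]; simp only [mul_assoc]
        _ = _ := by rw [hii]
    · calc i * (xi * s) * i = i * xi * (s * i) := by simp only [mul_assoc]
        _ = i * xi * (s * (i * i)) := by rw [hii]
        _ = i * xi * ((s * i) * i) := by simp only [mul_assoc]
        _ = i * xi * ((i * s) * i) := by rw [hs]
        _ = _ := by simp only [mul_assoc]
    · calc i * (s * xi) * i = (i * s) * xi * i := by simp only [mul_assoc]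
        _ = (s * i) * xi * i := by rw [hs]
        _ = (s * (i * i)) * xi * i := by rw [hii]
        _ = _ := by simp only [mul_assoc]
  rw [h6, add_sub_cancel_right]

/-- the corrected derivation commutes with the conjugation by `s` -/
theorem Ed_conj (hd : ∀ x y, d (x * y) = d x * y + x * d y) (hii : i * i = i)
    (ha : ∀ y, y * a = a * y) {s s' xi : A} (hs : s * i = i * s) (hs' : s' * i = i * s') {c : k}
    (h2 : i * d s = c • (i * a * s) + (xi * s - s * xi))
    (h2' : i * d s' = (-c) • (i * a * s') + (xi * s' - s' * xi)) (y : A) :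
    Ed d i (i * xi * i) (s * y * s') = s * Ed d i (i * xi * i) y * s' := by
  obtain ⟨E, hE⟩ : ∃ E, E = Ed d i (i * xi * i) := ⟨_, rfl⟩
  obtain ⟨Y, hY⟩ : ∃ Y, Y = i * y * i := ⟨_, rfl⟩
  have hYi : i * Y * i = Y := by
    rw [hY, ← mul_assoc, ← mul_assoc, hii, mul_assoc, hii]
  have hY1 := cut_l hii hYi
  have hY2 := cut_r hii hYi
  have h4 : i * (s * y * s') * i = (s * i) * (Y * (s' * i)) := by
    calc i * (s * y * s') * i = (i * s) * y * (s' * i) := by simp only [mul_assoc]
      _ = (s * i) * y * (i * s') := by rw [hs, hs']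
      _ = s * (i * i) * y * ((i * i) * s') := by rw [hii]
      _ = s * i * ((i * y * i) * (i * s')) := by simp only [mul_assoc]
      _ = _ := by rw [← hY, hs']
  have h7 : i * (Y * (s' * i)) * i = Y * (s' * i) := by
    calc i * (Y * (s' * i)) * i = (i * Y) * (s' * (i * i)) := by simp only [mul_assoc]
      _ = _ := by rw [hii, hY1]
  have hEY : i * E Y * i = E Y := by
    rw [hE, Ed_of hYi]
    have h8 : i * (i * d Y * i - (i * xi * i * Y - Y * (i * xi * i))) * i =
        (i * i) * d Y * (i * i) - ((i * i) * xi * i * (Y * i) - (i * Y) * (i * xi * (i * i))) := by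
      simp only [mul_sub, sub_mul, mul_assoc]
    rw [h8, hii, hY1, hY2]
  have hE1 := cut_l hii hEY
  have hE2 := cut_r hii hEY
  have h9 : E y = E Y := by rw [hE, hY, Ed_cut hii]
  have h10 : s * E Y * s' = s * i * (E Y * (s' * i)) := by
    calc s * E Y * s' = s * (i * E Y * i) * s' := by rw [hEY]
      _ = s * i * (E Y * (i * s')) := by simp only [mul_assoc]
      _ = _ := by rw [hs']
  have h11 : s * i * (Y * c • (a * (s' * i))) = c • (a * (s * i)) * (Y * (s' * i)) := by
    rw [mul_smul_comm, mul_smul_comm, smul_mul_assoc]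
    congr 1
    calc s * i * (Y * (a * (s' * i))) = (s * i * Y * a) * (s' * i) := by simp only [mul_assoc]
      _ = a * (s * i * Y) * (s' * i) := by rw [ha]
      _ = _ := by simp only [mul_assoc]
  rw [← hE, h9, h10]
  rw [show E (s * y * s') = E (i * (s * y * s') * i) by rw [hE, Ed_cut hii], h4, hE,
    Ed_mul hd hii (iui hii hs) h7, Ed_mul hd hii hYi (iui hii hs'), Ed_unit hd hii ha hs h2,
    Ed_unit hd hii ha hs' h2', mul_add, neg_smul, mul_neg, mul_neg, h11]
  abel

/-- the value at a central element -/
theorem Ed_center (hd : ∀ x y, d (x * y) = d x * y + x * d y) (hii : i * i = i)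
    {z xi : A} (hz : ∀ y, y * z = z * y) (hdz : ∀ y, y * d z = d z * y) :
    Ed d i (i * xi * i) (i * z) = i * d z := by
  have h3 : i * (i * z) * i = i * z := by
    rw [← mul_assoc, hii, mul_assoc, ← hz, ← mul_assoc, hii]
  rw [Ed_of h3, hd]
  have h4 : i * (d i * z + i * d z) * i = i * d z := by
    calc i * (d i * z + i * d z) * i = i * d i * (z * i) + (i * i) * (d z * i) := by
          rw [mul_add, add_mul]; simp only [mul_assoc]
      _ = i * d i * (i * z) + i * (i * d z) := by rw [← hz, ← hdz, hii]
      _ = (i * d i * i) * z + (i * i) * d z := by simp only [mul_assoc]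
      _ = _ := by rw [idi hd hii, zero_mul, zero_add, hii]
  have h5 : i * xi * i * (i * z) - i * z * (i * xi * i) = 0 := by
    have h6 : i * xi * i * (i * z) = i * xi * i * z := by
      rw [← mul_assoc, mul_assoc (i * xi) i i, hii]
    have h7 : i * z * (i * xi * i) = i * xi * i * z := by
      calc i * z * (i * xi * i) = z * i * (i * xi * i) := by rw [hz]
        _ = z * ((i * i) * xi * i) := by simp only [mul_assoc]
        _ = z * (i * xi * i) := by rw [hii]
        _ = _ := (hz _).symm
    rw [h6, h7, sub_self]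
  rw [h4, h5, sub_zero]

end Abs

/-- derivations preserve the centre -/
theorem der_center {A : Type*} [Ring A] [Algebra k A] {d : A →ₗ[k] A}
    (hd : ∀ x y, d (x * y) = d x * y + x * d y) {z : A}
    (hz : z ∈ Subalgebra.center k A) :
    d z ∈ Subalgebra.center k A := by
  rw [Subalgebra.mem_center_iff] at hz ⊢
  intro y
  have h1 := hd y z
  rw [hz y, hd z y, hz (d y), add_comm] at h1
  exact (add_left_cancel h1).symm

/-- Step (3) of the core lemma -/
theorem core_step3 [Fact p.Prime] {D : Subgroup G} (hD : IsPGroup p D)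
    (hab : D ≤ centralizer (D : Set G)) (del : G → k)
    (hdel : ∀ u ∈ D, ∀ v ∈ D, del (u * v) = del u + del v)
    {i a : MonoidAlgebra k G} (hi : ∀ u ∈ D, cn u i = i) (hii : i * i = i)
    (ha : a ∈ Subalgebra.center k (MonoidAlgebra k G))
    (d : MonoidAlgebra k G →ₗ[k] MonoidAlgebra k G)
    (hd : ∀ x y, d (x * y) = d x * y + x * d y) (xi : MonoidAlgebra k G)
    (h2 : ∀ u ∈ D, i * d (sg u) = del u • (i * a * sg u) + (xi * sg u - sg u * xi))
    {x : G} (hx : x ∈ D) {z : MonoidAlgebra k G}
    (hz : z ∈ Subalgebra.center k (MonoidAlgebra k G)) {kap : k}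
    (hzx : ∀ y ∈ centralizer (D : Set G), (i * z).coeff y = kap * (sg x * i).coeff y) :
    ∀ y ∈ centralizer (D : Set G),
      (i * d z).coeff y = kap * del x * (a * (sg x * i)).coeff y := by
  -- `i` commutes with `D`
  have hui : ∀ u ∈ D, sg u * i = i * sg u := by
    intro u hu
    have h3 := hi u hu
    unfold cn at h3
    calc sg u * i = sg u * i * (sg u⁻¹ * sg u) := by rw [sg_inv_mul, mul_one]
      _ = (sg u * i * sg u⁻¹) * sg u := by simp only [mul_assoc]
      _ = i * sg u := by rw [h3]
  have hac : ∀ y, y * a = a * y := fun y => (Subalgebra.mem_center_iff.1 ha y)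
  have hzc : ∀ y, y * z = z * y := fun y => (Subalgebra.mem_center_iff.1 hz y)
  have hdz : ∀ y, y * d z = d z * y := fun y =>
    (Subalgebra.mem_center_iff.1 (der_center hd hz) y)
  have hdel1 : del 1 = 0 := by
    have h3 := hdel 1 D.one_mem 1 D.one_mem
    rw [mul_one] at h3
    exact left_eq_add.1 h3
  have hEc : ∀ u ∈ D, ∀ y, Ed d i (i * xi * i) (cn u y) = cn u (Ed d i (i * xi * i) y) := by
    intro u hu y
    have hu' : u⁻¹ ∈ D := D.inv_mem hu
    have hdu : del u⁻¹ = - del u := by
      have h9 := hdel u hu _ hu'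
      rw [mul_inv_cancel, hdel1] at h9
      exact (neg_eq_of_add_eq_zero_right h9.symm).symm
    have h3 := h2 _ hu'
    rw [hdu] at h3
    exact Ed_conj hd hii hac (hui u hu) (hui _ hu') (h2 u hu) h3 y
  -- the remainder
  obtain ⟨ρ, hρ⟩ : ∃ ρ, ρ = i * z - kap • (sg x * i) := ⟨_, rfl⟩
  have hρD : ∀ u ∈ D, cn u ρ = ρ := by
    intro u hu
    have h3 : cn u z = z := by
      unfold cn
      rw [hzc, mul_assoc, sg_mul_inv, mul_one]
    have h4 : u * x * u⁻¹ = x := by
      have := hab hu x hx
      rw [← this, mul_inv_cancel_right]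
    rw [hρ, cn_sub, cn_smul, cn_mul', cn_mul', hi u hu, h3, cn_sg, h4]
  have hρ0 : ∀ y ∈ centralizer (D : Set G), ρ.coeff y = 0 := by
    intro y hy
    have h3 : ρ.coeff y = (i * z).coeff y - kap * (sg x * i).coeff y := by
      rw [hρ]
      simp
    rw [h3, hzx y hy, sub_self]
  intro y hy
  have hfin := lin_orbit hD _ hEc hρD hρ0 hy
  rw [hρ, map_sub, map_smul, Ed_unit hd hii hac (hui x hx) (h2 x hx),
    Ed_center hd hii hzc hdz] at hfin
  have h12 : (i * d z - kap • (del x • (a * (sg x * i)))).coeff y =
      (i * d z).coeff y - kap * (del x * (a * (sg x * i)).coeff y) := by simp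
  rw [h12, sub_eq_zero] at hfin
  rw [hfin, mul_assoc]

end P179H725
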